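import Vale.Agent.P074.APL

open MeasureTheory Set Filter Topology
open scoped ENNReal NNReal

namespace Vale.Agent.P074

theorem apl_smul {E : Type} [MeasurableSpace E] [AddCommGroup E] [Module ℝ E] (m : Measure E)
    (hm : APL m) (k : ℝ≥0∞) : APL (k • m) := by
  intro α β h u w c hα hβ hh hu hw hc h1 h2 hyp
  simp only [lintegral_smul_measure, smul_eq_mul] at h1 h2 ⊢
  have := hm (fun x => k * α x) (fun x => k * β x) (fun x => k * h x) u w c (by fun_prop)
    (by fun_prop) (by fun_prop) hu hw hc (by rw [lintegral_const_mul _ hα, h1])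
    (by rw [lintegral_const_mul _ hβ, h2])
    (by
      intro x y
      have e : (k * α x * (k * β y)) ^ (1 / 2 : ℝ) = k * (α x * β y) ^ (1 / 2 : ℝ) := by
        have : k * α x * (k * β y) = k ^ (2 : ℝ) * (α x * β y) := by
          rw [ENNReal.rpow_two]; ring
        rw [this, ENNReal.mul_rpow_of_nonneg _ _ (by norm_num), ← ENNReal.rpow_mul]
        norm_num
      rw [e]
      have := mul_le_mul_right (hyp x y) k
      calc (u x + w y) * (k * (α x * β y) ^ (1 / 2 : ℝ))
          = k * ((u x + w y) * (α x * β y) ^ (1 / 2 : ℝ)) := by ring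
        _ ≤ _ := this
        _ = _ := by ring)
  rw [lintegral_const_mul _ hh] at this
  rw [← lintegral_const_mul _ (hu.fun_mul hα), ← lintegral_const_mul _ (hw.fun_mul hβ)]
  convert this using 3 <;> ext x <;> ring

lemma lintegral_ofReal_add_const {E : Type} [MeasurableSpace E] (n : Measure E)
    [IsFiniteMeasure n] (u : E → ℝ) (hu : Measurable u) (B : ℝ) (hB : ∀ᵐ x ∂n, |u x| ≤ B) :
    ∫⁻ x, ENNReal.ofReal (u x + B) ∂n = ENNReal.ofReal (∫ x, u x ∂n + B * n.real univ) := by
  have hi : Integrable u n := Integrable.of_bound hu.aestronglyMeasurable B hB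
  rw [← ofReal_integral_eq_lintegral_ofReal (f := fun x => u x + B) (hi.add (integrable_const B))]
  · congr 1
    have := integral_add hi (integrable_const B)
    rw [integral_const, smul_eq_mul, mul_comm] at this
    exact this
  · filter_upwards [hB] with x hx
    have := (abs_le.1 hx).1
    simp only [Pi.zero_apply]
    linarith

theorem aplR {E : Type} [MeasurableSpace E] [AddCommGroup E] [Module ℝ E] (m : Measure E)
    (hm : APL m) (A A' D : Set E) (hA : MeasurableSet A) (hA' : MeasurableSet A')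
    (hD : MeasurableSet D) (r u w h : E → ℝ) (mr : Measurable r) (mu : Measurable u)
    (mw : Measurable w) (mh : Measurable h) (hr : ∀ x ∈ A', 0 ≤ r x)
    (hM : m A = (m.withDensity fun x => ENNReal.ofReal (r x ^ 2)) A') (hfin : m A ≠ ∞)
    (B : ℝ) (hB : 0 < B) (hu : ∀ x ∈ A, |u x| ≤ B) (hw : ∀ x ∈ A', |w x| ≤ B)
    (hh0 : ∀ z ∈ D, 0 ≤ h z) (hhi : IntegrableOn h D m)
    (hyp : ∀ x ∈ A, ∀ y ∈ A', (1 / 2 : ℝ) • (x + y) ∈ D ∧
      (u x + w y) * r y ≤ h ((1 / 2 : ℝ) • (x + y))) :
    ∫ x in A, u x ∂m + ∫ x in A', w x ∂(m.withDensity fun x => ENNReal.ofReal (r x ^ 2)) ≤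
      ∫ z in D, h z ∂m := by
  set σ := m.withDensity fun x => ENNReal.ofReal (r x ^ 2) with hσ
  have hnn : 0 ≤ ∫ z in D, h z ∂m := setIntegral_nonneg hD hh0
  by_cases h0 : m A = 0
  · have h0' : σ A' = 0 := hM ▸ h0
    rw [Measure.restrict_eq_zero.2 h0, Measure.restrict_eq_zero.2 h0']
    simpa using hnn
  set M := m A with hMdef
  have mr2 : Measurable fun x => ENNReal.ofReal (r x ^ 2) := by fun_prop
  have key := hm (A.indicator fun _ => M⁻¹)
    (A'.indicator fun x => ENNReal.ofReal (r x ^ 2) * M⁻¹)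
    (D.indicator fun x => ENNReal.ofReal (h x) * M⁻¹)
    (fun x => ENNReal.ofReal (u x + B)) (fun x => ENNReal.ofReal (w x + B))
    (ENNReal.ofReal (2 * B)) (measurable_const.indicator hA)
    ((mr2.mul_const _).indicator hA') (Measurable.indicator (by fun_prop) hD) (by fun_prop)
    (by fun_prop) (by simpa using hB)
    (by
      rw [lintegral_indicator hA, setLIntegral_const]
      exact ENNReal.inv_mul_cancel h0 hfin)
    (by
      rw [lintegral_indicator hA', lintegral_mul_const _ mr2, ← withDensity_apply _ hA', ← hM]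
      exact ENNReal.mul_inv_cancel h0 hfin)
    (by
      intro x y
      by_cases hx : x ∈ A
      swap
      · simp [indicator_of_notMem hx]
      by_cases hy : y ∈ A'
      swap
      · simp [indicator_of_notMem hy]
      obtain ⟨hz, hle⟩ := hyp x hx y hy
      rw [indicator_of_mem hx, indicator_of_mem hy, indicator_of_mem hz]
      have e : (M⁻¹ * (ENNReal.ofReal (r y ^ 2) * M⁻¹)) ^ (1 / 2 : ℝ) =
          ENNReal.ofReal (r y) * M⁻¹ := by
        have : M⁻¹ * (ENNReal.ofReal (r y ^ 2) * M⁻¹) =
            (ENNReal.ofReal (r y) * M⁻¹) ^ (2 : ℝ) := by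
          rw [ENNReal.rpow_two, ENNReal.ofReal_pow (hr y hy)]; ring
        rw [this, ← ENNReal.rpow_mul]
        norm_num
      rw [e, ← mul_assoc, ← mul_assoc, ← add_mul]
      gcongr
      have h1 := (abs_le.1 (hu x hx)).1
      have h2 := (abs_le.1 (hw y hy)).1
      have h3 := hr y hy
      rw [← ENNReal.ofReal_add (by linarith) (by linarith), ← ENNReal.ofReal_mul (by linarith),
        ← ENNReal.ofReal_mul (by linarith), ← ENNReal.ofReal_add (hh0 _ hz) (by positivity)]
      apply ENNReal.ofReal_le_ofReal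
      nlinarith)
  have : IsFiniteMeasure (m.restrict A) := ⟨by simpa using hfin.lt_top⟩
  have : IsFiniteMeasure (σ.restrict A') := ⟨by simpa [← hM] using hfin.lt_top⟩
  have e1 : ∫⁻ x, ENNReal.ofReal (u x + B) * A.indicator (fun _ => M⁻¹) x ∂m =
      ENNReal.ofReal (∫ x in A, u x ∂m + B * M.toReal) * M⁻¹ := by
    have := lintegral_ofReal_add_const (m.restrict A) u mu B
      ((ae_restrict_iff' hA).2 (Eventually.of_forall hu))
    rw [measureReal_restrict_apply_univ] at this
    change _ = ENNReal.ofReal (∫ x in A, u x ∂m + B * M.toReal) at this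
    rw [← this, ← lintegral_mul_const _ (by fun_prop), ← lintegral_indicator hA]
    congr 1
    ext x
    by_cases hx : x ∈ A <;> simp [hx]
  have e2 : ∫⁻ x, ENNReal.ofReal (w x + B) *
      A'.indicator (fun x => ENNReal.ofReal (r x ^ 2) * M⁻¹) x ∂m =
      ENNReal.ofReal (∫ x in A', w x ∂σ + B * M.toReal) * M⁻¹ := by
    have := lintegral_ofReal_add_const (σ.restrict A') w mw B
      ((ae_restrict_iff' hA').2 (Eventually.of_forall hw))
    rw [measureReal_restrict_apply_univ, measureReal_def, ← hM] at this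
    rw [← this, hσ, setLIntegral_withDensity_eq_setLIntegral_mul _ mr2 (by fun_prop) hA',
      ← lintegral_mul_const _ (by fun_prop), ← lintegral_indicator hA']
    congr 1
    ext x
    by_cases hx : x ∈ A'
    · simp only [hx, indicator_of_mem, Pi.mul_apply]; ring
    · simp [hx]
  have e3 : ∫⁻ x, D.indicator (fun x => ENNReal.ofReal (h x) * M⁻¹) x ∂m =
      ENNReal.ofReal (∫ z in D, h z ∂m) * M⁻¹ := by
    rw [lintegral_indicator hD, lintegral_mul_const _ (by fun_prop),
      ofReal_integral_eq_lintegral_ofReal hhi ((ae_restrict_iff' hD).2 (Eventually.of_forall hh0))]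
  rw [e1, e2, e3, ← add_mul] at key
  have key2 := mul_step h0 hfin (U := (ENNReal.ofReal (∫ x in A, u x ∂m + B * M.toReal) +
    ENNReal.ofReal (∫ x in A', w x ∂σ + B * M.toReal)) * M⁻¹) key
  rw [mul_assoc, ENNReal.inv_mul_cancel h0 hfin, mul_one] at key2
  have e4 : ENNReal.ofReal (2 * B) * M = ENNReal.ofReal (2 * B * M.toReal) := by
    rw [ENNReal.ofReal_mul (p := 2 * B) (by positivity), ENNReal.ofReal_toReal hfin]
  rw [e4, ← ENNReal.ofReal_add hnn (by positivity)] at key2
  have key3 := ENNReal.ofReal_add_le.trans key2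
  rw [ENNReal.ofReal_le_ofReal_iff (by positivity)] at key3
  linarith

end Vale.Agent.P074
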