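import Vale.Agent.P074.Var

open MeasureTheory Set Filter Topology
open scoped ENNReal NNReal RealInnerProductSpace

namespace Vale.Agent.P074

variable {d : ℕ}

lemma integrable_of_finset {F : Type} [NormedAddCommGroup F] {μ : Measure (V d)}
    [IsFiniteMeasure μ] {S : Finset (V d)} (hS : ∀ᵐ y ∂μ, y ∈ S) (k : V d → F) :
    Integrable k μ := by
  have h : IntegrableOn k S μ := IntegrableOn.finset
  rwa [IntegrableOn, Measure.restrict_eq_self_of_ae_mem hS] at h

lemma integral_of_finset {F : Type} [NormedAddCommGroup F] [NormedSpace ℝ F] [CompleteSpace F]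
    {μ : Measure (V d)} [IsFiniteMeasure μ] {S : Finset (V d)} (hS : ∀ᵐ y ∂μ, y ∈ S)
    (k : V d → F) : ∫ y, k y ∂μ = ∑ y ∈ S, μ.real {y} • k y := by
  rw [← setIntegral_finset S IntegrableOn.finset, Measure.restrict_eq_self_of_ae_mem hS]

lemma sum_setIntegral_eq {F : Type} [NormedAddCommGroup F] [NormedSpace ℝ F]
    {ν : Measure (V d)} (S : Finset (V d)) (C : V d → Set (V d))
    (hC : ∀ y, MeasurableSet (C y)) {g : V d → F} (hg : Integrable g ν)
    (h : ∀ᵐ x ∂ν, ∃ y0 ∈ S, ∀ y, x ∈ C y ↔ y = y0) :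
    ∑ y ∈ S, ∫ x in C y, g x ∂ν = ∫ x, g x ∂ν := by
  simp only [← integral_indicator (hC _)]
  rw [← integral_finsetSum S fun y _ => hg.indicator (hC y)]
  refine integral_congr_ae ?_
  filter_upwards [h] with x hx
  obtain ⟨y0, hy0, hx⟩ := hx
  rw [Finset.sum_eq_single_of_mem y0 hy0]
  · exact indicator_of_mem ((hx y0).2 rfl) _
  · intro y _ hy
    exact indicator_of_notMem (fun h => hy ((hx y).1 h)) _

lemma sum_setIntegral_le {ν : Measure (V d)} (S : Finset (V d)) (C : V d → Set (V d))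
    (hC : ∀ y, MeasurableSet (C y)) {g : V d → ℝ} (hg : Integrable g ν)
    (h : ∀ᵐ x ∂ν, 0 ≤ g x ∧ ∀ y ∈ S, ∀ y' ∈ S, x ∈ C y → x ∈ C y' → y = y') :
    ∑ y ∈ S, ∫ x in C y, g x ∂ν ≤ ∫ x, g x ∂ν := by
  simp only [← integral_indicator (hC _)]
  rw [← integral_finsetSum S fun y _ => hg.indicator (hC y)]
  refine integral_mono_ae (integrable_finsetSum S fun y _ => hg.indicator (hC y)) hg ?_
  filter_upwards [h] with x hx
  by_cases h0 : ∃ y0 ∈ S, x ∈ C y0
  · obtain ⟨y0, hy0, hx0⟩ := h0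
    rw [Finset.sum_eq_single_of_mem y0 hy0]
    · exact (indicator_of_mem hx0 _).le
    · intro y hy hne
      exact indicator_of_notMem (fun h => hne (hx.2 y hy y0 hy0 h hx0)) _
  · push Not at h0
    rw [Finset.sum_eq_zero fun y hy => indicator_of_notMem (h0 y hy) _]
    exact hx.1

lemma real_preimage {σ μ : Measure (V d)} {T : V d → V d} (hT : Measurable T)
    (hmap : σ.map T = μ) (y : V d) : σ.real (T ⁻¹' {y}) = μ.real {y} := by
  rw [← hmap, measureReal_def, measureReal_def, Measure.map_apply hT (measurableSet_singleton y)]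

lemma integral_avg {σ μ : Measure (V d)} [IsFiniteMeasure σ] [IsFiniteMeasure μ]
    {S : Finset (V d)} (hS : ∀ᵐ y ∂μ, y ∈ S) {T : V d → V d} (hT : Measurable T)
    (hmap : σ.map T = μ) {g : V d → ℝ} (hg : Integrable g σ) :
    ∫ y, (⨍ x in T ⁻¹' {y}, g x ∂σ) ∂μ = ∫ x, g x ∂σ := by
  rw [integral_of_finset hS, ← sum_setIntegral_eq S (fun y => T ⁻¹' {y})
    (fun y => hT (measurableSet_singleton y)) hg]
  · refine Finset.sum_congr rfl fun y _ => ?_
    rw [← real_preimage hT hmap, measure_smul_setAverage _ (measure_ne_top _ _)]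
  · rw [← hmap] at hS
    filter_upwards [ae_of_ae_map hT.aemeasurable hS] with x hx
    exact ⟨T x, hx, fun y => by simp [eq_comm]⟩

/-- Barycenter of the cell of `y`. -/
noncomputable def bary (σ : Measure (V d)) (T : V d → V d) (y : V d) : V d :=
  ⨍ x in T ⁻¹' {y}, x ∂σ

lemma norm_bary_le {K : Set (V d)} {σ : Measure (V d)} [IsFiniteMeasure σ]
    (hσ : ∀ᵐ x ∂σ, x ∈ K) {R : ℝ} (hR0 : 0 ≤ R) (hR : ∀ x ∈ K, ‖x‖ ≤ R) (T : V d → V d)
    (y : V d) : ‖bary σ T y‖ ≤ R := by
  rw [bary, setAverage_eq, norm_smul, Real.norm_eq_abs, abs_of_nonneg (by positivity)]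
  have h1 : ‖∫ x in T ⁻¹' {y}, x ∂σ‖ ≤ R * σ.real (T ⁻¹' {y}) :=
    norm_setIntegral_le_of_norm_le_const_ae (measure_lt_top _ _)
      (ae_restrict_of_ae (hσ.mono hR))
  rcases eq_or_lt_of_le (measureReal_nonneg (μ := σ) (s := T ⁻¹' {y})) with h | h
  · rw [← h]; simpa using hR0
  · rw [inv_mul_le_iff₀ h, mul_comm]
    exact h1

/-- The Laguerre-type cell attached to an optimal pair. -/
def cell (K Y : Set (V d)) (ψ : V d → ℝ) (T : V d → V d) (y : V d) : Set (V d) :=
  {x | x ∈ K ∧ T x = y ∧ cj Y ψ x = ⟪x, y⟫ - ψ y}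

lemma measurableSet_cell {K Y : Set (V d)} (hK : IsCompact K) (hY : IsCompact Y)
    (hne : Y.Nonempty) {ψ : V d → ℝ} (hψ : Continuous ψ) {T : V d → V d} (hT : Measurable T)
    (y : V d) : MeasurableSet (cell K Y ψ T y) :=
  hK.measurableSet.inter ((hT (measurableSet_singleton y)).inter
    (isClosed_eq (continuous_cj hY hne hψ) (by fun_prop)).measurableSet)

lemma OptPair.cell_ae_eq {K Y : Set (V d)} {σ μ : Measure (V d)} (hσ : ∀ᵐ x ∂σ, x ∈ K)
    {ψ : V d → ℝ} {T : V d → V d} (h : OptPair Y σ μ ψ T) (y : V d) :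
    cell K Y ψ T y =ᵐ[σ] T ⁻¹' {y} := by
  filter_upwards [hσ, h.sat] with x h1 h2
  apply propext
  constructor
  · exact fun hx => hx.2.1
  · intro hx
    have hx' : T x = y := hx
    exact ⟨h1, hx', hx' ▸ h2.2⟩

theorem bary_ineq {K Y : Set (V d)} (hK : IsCompact K) (hKc : Convex ℝ K)
    [IsProbabilityMeasure (unif K)] (hY : IsCompact Y) (hne : Y.Nonempty) {R : ℝ}
    (hR : ∀ x ∈ K, ‖x‖ ≤ R) {f : V d → ℝ} (hf : Pert K f) {μ : Measure (V d)}
    [IsFiniteMeasure μ] {S : Finset (V d)} (hS : ∀ᵐ y ∂μ, y ∈ S) (hSY : ∀ y ∈ S, y ∈ Y)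
    {ψ ψ' : V d → ℝ} {T T' : V d → V d} (h : OptPair Y (unif K) μ ψ T)
    (h' : OptPair Y (dens K f) μ ψ' T') :
    ∫ y, ‖bary (unif K) T y - bary (dens K f) T' y‖ ^ 2 ∂μ ≤
      36 * R ^ 2 * ∫ x, f x ^ 2 ∂(unif K) := by
  have := hf.prob
  have hρK := unif_ae_mem hK
  have hσK : ∀ᵐ x ∂(dens K f), x ∈ K := (dens_ac K f).ae_le hρK
  have hc := h.cont
  have hc' := h'.cont
  have hcm : Continuous fun y => (ψ y + ψ' y) / 2 := by fun_prop
  set D : V d → Set (V d) := fun y =>
    {z | z ∈ K ∧ cj Y (fun y => (ψ y + ψ' y) / 2) z = ⟪z, y⟫ - (ψ y + ψ' y) / 2} with hD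
  have hDm : ∀ y, MeasurableSet (D y) := fun y =>
    hK.measurableSet.inter (isClosed_eq (continuous_cj hY hne hcm) (by fun_prop)).measurableSet
  have mA := measurableSet_cell hK hY hne hc h.meas
  have mA' := measurableSet_cell hK hY hne hc' h'.meas
  set P : V d → ℝ := fun x => (R ^ 2 - ‖x‖ ^ 2) / 2 with hP
  have hPc : Continuous P := by fun_prop
  have iP := integrable_of_continuous hK hρK hPc
  have iid : Integrable (fun x : V d => x) (unif K) := integrable_of_continuous hK hρK continuous_id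
  have iid' : Integrable (fun x : V d => x) (dens K f) :=
    integrable_of_continuous hK hσK continuous_id
  have if2 := hf.integrable_sq
  have step : ∀ y ∈ S, μ.real {y} • ‖bary (unif K) T y - bary (dens K f) T' y‖ ^ 2 / 8 +
      ∫ x in cell K Y ψ T y, P x ∂(unif K) +
      ∫ x in cell K Y ψ' T' y, (P x - 9 / 2 * R ^ 2 * f x ^ 2) ∂(unif K) ≤
      ∫ x in D y, 2 * P x ∂(unif K) := by
    intro y hy
    set a := bary (unif K) T y - bary (dens K f) T' y with ha
    have e1 := h.cell_ae_eq hρK y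
    have e2 := h'.cell_ae_eq hσK y
    have key := general_ineq hK hf (mA y) (mA' y) (hDm y) (fun x hx => hx.1) (fun x hx => hx.1)
      (fun x hx => hx.1)
      (by
        rw [measure_congr e1, measure_congr e2,
          ← Measure.map_apply h.meas (measurableSet_singleton y),
          ← Measure.map_apply h'.meas (measurableSet_singleton y), h.map, h'.map])
      hPc hPc (h := fun x => 2 * P x) (by fun_prop) (Λ := R) (B := R ^ 2 / 2) (by positivity)
      (fun x hx y hy => by
        have a2 := abs_le.1 (abs_norm_sq_sub_le (hR x hx) (hR y hy))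
        rw [abs_le]
        simp only [hP]
        constructor <;> linarith [a2.1, a2.2])
      (fun y _ => by
        simp only [hP]
        linarith [sq_nonneg ‖y‖])
      (fun z hz => by
        have a5 : ‖z‖ ^ 2 ≤ R ^ 2 := by gcongr; exact hR z hz.1
        simp only [hP]
        linarith)
      (fun x hx x' hx' => by
        refine ⟨⟨mid_mem hKc hx.1 hx'.1, le_antisymm ?_ (le_cj hY hcm _ (hSY y hy))⟩, ?_⟩
        · have a3 := cj_mid hY hne hc hc' x x'
          rw [hx.2.2, hx'.2.2] at a3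
          rw [inner_smul_left, inner_add_left]
          simp only [conj_trivial]
          linarith
        · simp only [hP, norm_mid_sq]
          linarith) a
    have i1 : Integrable (fun x => ⟪a, x⟫ / 4) (unif K) :=
      integrable_of_continuous hK hρK (by fun_prop)
    have b1 : ∫ x in cell K Y ψ T y, ⟪a, x⟫ / 4 ∂(unif K) =
        μ.real {y} * ⟪a, bary (unif K) T y⟫ / 4 := by
      rw [integral_div, integral_inner iid.integrableOn, setIntegral_congr_set e1,
        ← measure_smul_setAverage _ (measure_ne_top _ _), real_preimage h.meas h.map,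
        inner_smul_right]
      rfl
    have b2 : ∫ x in cell K Y ψ' T' y, ⟪a, x⟫ / 4 ∂(dens K f) =
        μ.real {y} * ⟪a, bary (dens K f) T' y⟫ / 4 := by
      rw [integral_div, integral_inner iid'.integrableOn, setIntegral_congr_set e2,
        ← measure_smul_setAverage _ (measure_ne_top _ _), real_preimage h'.meas h'.map,
        inner_smul_right]
      rfl
    have b3 : (unif K).real (cell K Y ψ T y) = μ.real {y} := by
      rw [measureReal_congr e1, real_preimage h.meas h.map]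
    have b4 : ⟪a, bary (unif K) T y⟫ - ⟪a, bary (dens K f) T' y⟫ = ‖a‖ ^ 2 := by
      rw [← inner_sub_right, ← ha, real_inner_self_eq_norm_sq]
    rw [integral_sub (iP.fun_add i1).integrableOn (integrable_const _),
      integral_add iP.integrableOn i1.integrableOn, b1, b2, setIntegral_const, b3] at key
    have b5 : ∀ x, P x + (P x - P x) * f x / 2 - (R ^ 2 / 2 + 4 * R ^ 2) * f x ^ 2 =
        P x - 9 / 2 * R ^ 2 * f x ^ 2 := fun x => by ring
    simp only [b5, smul_eq_mul] at key ⊢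
    have b6 : μ.real {y} * ‖a‖ ^ 2 = μ.real {y} * ⟪a, bary (unif K) T y⟫ -
      μ.real {y} * ⟪a, bary (dens K f) T' y⟫ := by rw [← b4]; ring
    linarith
  have hsum := Finset.sum_le_sum step
  have hcell : ∀ {σ : Measure (V d)} {ψ : V d → ℝ} {T : V d → V d}, (∀ᵐ x ∂σ, x ∈ K) →
      OptPair Y σ μ ψ T → ∀ᵐ x ∂σ, ∃ y0 ∈ S, ∀ y, x ∈ cell K Y ψ T y ↔ y = y0 := by
    intro σ ψ T hσ h
    have hS' := hS
    rw [← h.map] at hS'
    filter_upwards [hσ, h.sat, ae_of_ae_map h.meas.aemeasurable hS'] with x h1 h2 h3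
    refine ⟨T x, h3, fun y => ⟨fun hx => hx.2.1.symm, ?_⟩⟩
    rintro rfl
    exact ⟨h1, rfl, h2.2⟩
  have i2 : Integrable (fun x => P x - 9 / 2 * R ^ 2 * f x ^ 2) (unif K) :=
    iP.sub' (if2.const_mul _)
  obtain ⟨L, -, hL⟩ := exists_norm_bound hY
  rw [Finset.sum_add_distrib, Finset.sum_add_distrib, ← Finset.sum_div, ← integral_of_finset hS,
    sum_setIntegral_eq S _ mA iP (hcell hρK h),
    sum_setIntegral_eq S _ mA' i2 (hf.ac.ae_le (hcell hσK h')),
    integral_sub iP (if2.const_mul _), integral_const_mul] at hsum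
  have hlast := sum_setIntegral_le S D hDm (iP.const_mul 2) (by
    filter_upwards [hρK, (unif_ac K).ae_le (lipschitz_cj hY hne hcm hL).ae_differentiableAt]
      with z hz hz'
    refine ⟨?_, fun y hy y' hy' h1 h2 => ?_⟩
    · have a5 : ‖z‖ ^ 2 ≤ R ^ 2 := by gcongr; exact hR z hz
      simp only [hP]
      linarith
    · rw [eq_gradient_of_cj hY hcm hz' (hSY y hy) h1.2,
        eq_gradient_of_cj hY hcm hz' (hSY y' hy') h2.2])
  rw [integral_const_mul] at hlast
  linarith

end Vale.Agent.P074
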