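import Vale.Agent.P074.Conj

open MeasureTheory Set Filter Topology
open scoped ENNReal NNReal RealInnerProductSpace

namespace Vale.Agent.P074

variable {d : ℕ}

lemma J_le_add {K Y : Set (V d)} (hK : IsCompact K) (hY : IsCompact Y) (hne : Y.Nonempty)
    {σ μ : Measure (V d)} [IsProbabilityMeasure σ] [IsProbabilityMeasure μ]
    (hσ : ∀ᵐ x ∂σ, x ∈ K) (hμ : ∀ᵐ y ∂μ, y ∈ Y) {ψ ψ' : V d → ℝ}
    (hψ : Continuous ψ) (hψ' : Continuous ψ') {a b : ℝ}
    (h1 : ∀ x ∈ K, cj Y ψ' x ≤ cj Y ψ x + a) (h2 : ∀ y ∈ Y, ψ' y ≤ ψ y + b) :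
    J Y σ μ ψ' ≤ J Y σ μ ψ + (a + b) := by
  have i1 := integrable_of_continuous hK hσ (continuous_cj hY hne hψ)
  have i2 := integrable_of_continuous hK hσ (continuous_cj hY hne hψ')
  have i3 := integrable_of_continuous hY hμ hψ
  have i4 := integrable_of_continuous hY hμ hψ'
  have e1 : ∫ x, cj Y ψ' x ∂σ ≤ ∫ x, (cj Y ψ x + a) ∂σ := by
    refine integral_mono_ae i2 (i1.add (integrable_const a)) ?_
    filter_upwards [hσ] with x hx using h1 x hx
  have e2 : ∫ x, ψ' x ∂μ ≤ ∫ x, (ψ x + b) ∂μ := by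
    refine integral_mono_ae i4 (i3.add (integrable_const b)) ?_
    filter_upwards [hμ] with x hx using h2 x hx
  rw [integral_add i1 (integrable_const a)] at e1
  rw [integral_add i3 (integrable_const b)] at e2
  simp only [integral_const, probReal_univ, smul_eq_mul, one_mul] at e1 e2
  unfold J
  linarith

theorem exists_dual_min {K Y : Set (V d)} (hK : IsCompact K) (hKne : K.Nonempty)
    (hY : IsCompact Y) (hne : Y.Nonempty) {R : ℝ≥0} (hR : ∀ x ∈ K, ‖x‖ ≤ R)
    {σ μ : Measure (V d)} [IsProbabilityMeasure σ] [IsProbabilityMeasure μ]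
    (hσ : ∀ᵐ x ∂σ, x ∈ K) (hμ : ∀ᵐ y ∂μ, y ∈ Y) :
    ∃ ψ : V d → ℝ, LipschitzWith R ψ ∧ ∀ ψ', Continuous ψ' → J Y σ μ ψ ≤ J Y σ μ ψ' := by
  set S : Set C(V d, ℝ) := {g | LipschitzWith R g ∧ g 0 = 0} with hS
  have hSc : IsCompact S := by
    apply ArzelaAscoli.isCompact_of_equicontinuous
    · have h1 : ContinuousMap.toFun '' S = {g : V d → ℝ | LipschitzWith R g} ∩ {g | g 0 = 0} := by
        ext g
        constructor
        · rintro ⟨g', hg', rfl⟩
          exact hg'
        · rintro ⟨h1, h2⟩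
          exact ⟨⟨g, h1.continuous⟩, ⟨h1, h2⟩, rfl⟩
      rw [h1]
      have h2 : IsCompact (Set.pi univ fun y : V d => Icc (-(R * ‖y‖)) (R * ‖y‖)) :=
        isCompact_univ_pi fun y => isCompact_Icc
      refine h2.of_isClosed_subset ((isClosed_setOfPred_lipschitzWith R).inter
        (isClosed_eq (continuous_apply 0) continuous_const)) ?_
      rintro g ⟨h1, h2⟩ y -
      have := h1.dist_le_mul y 0
      rw [show g 0 = 0 from h2, dist_zero_right, dist_zero_right, Real.norm_eq_abs] at this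
      exact abs_le.1 this
    · exact (LipschitzWith.uniformEquicontinuous _ R fun c : S => c.2.1).equicontinuous
  have hSne : S.Nonempty := ⟨0, (LipschitzWith.const' 0), rfl⟩
  have hJc : Continuous fun g : C(V d, ℝ) => J Y σ μ g := by
    rw [continuous_iff_continuousAt]
    intro g
    rw [ContinuousAt, Metric.tendsto_nhds]
    intro ε hε
    have h1 := (ContinuousMap.tendsto_iff_forall_isCompact_tendstoUniformlyOn.1
      (tendsto_id (x := 𝓝 g))) Y hY
    rw [Metric.tendstoUniformlyOn_iff] at h1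
    filter_upwards [h1 (ε / 3) (by positivity)] with g' hg'
    have h2 : ∀ y ∈ Y, g' y ≤ g y + ε / 3 := fun y hy => by
      have := hg' y hy
      rw [Real.dist_eq, abs_lt] at this
      simp only [id] at this
      linarith [this.1]
    have h3 : ∀ y ∈ Y, g y ≤ g' y + ε / 3 := fun y hy => by
      have := hg' y hy
      rw [Real.dist_eq, abs_lt] at this
      simp only [id] at this
      linarith [this.2]
    have a1 := J_le_add hK hY hne hσ hμ g.continuous g'.continuous
      (fun x _ => cj_le_cj_add hY hne g.continuous g'.continuous h3 x) h2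
    have a2 := J_le_add hK hY hne hσ hμ g'.continuous g.continuous
      (fun x _ => cj_le_cj_add hY hne g'.continuous g.continuous h2 x) h3
    rw [Real.dist_eq, abs_lt]
    constructor <;> linarith
  obtain ⟨g, hgS, hgmin⟩ := hSc.exists_isMinOn hSne hJc.continuousOn
  refine ⟨g, hgS.1, fun ψ' hψ' => ?_⟩
  have hc1 := continuous_cj hY hne hψ'
  set ψ2 : V d → ℝ := cj K (cj Y ψ') with hψ2
  have hl2 : LipschitzWith R ψ2 := lipschitz_cj hK hKne hc1 hR
  have hl3 : LipschitzWith R fun y => ψ2 y - ψ2 0 := by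
    refine LipschitzWith.of_dist_le_mul fun x y => ?_
    rw [dist_sub_right]
    exact hl2.dist_le_mul x y
  have hmem : (⟨fun y => ψ2 y - ψ2 0, hl3.continuous⟩ : C(V d, ℝ)) ∈ S := ⟨hl3, by simp⟩
  have h1 : J Y σ μ g ≤ J Y σ μ fun y => ψ2 y - ψ2 0 := hgmin hmem
  have h2 := J_le_add hK hY hne hσ hμ hψ' hl3.continuous (a := ψ2 0) (b := -ψ2 0)
    (fun x hx => by
      obtain ⟨y, hy, e⟩ := exists_cj hY hne hl3.continuous x
      have := le_cj hK hc1 y hx
      rw [real_inner_comm] at this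
      rw [e]
      change _ ≤ ψ2 y at this
      linarith)
    (fun y hy => by
      obtain ⟨x, hx, e⟩ := exists_cj hK hKne hc1 y
      have := le_cj hY hψ' x hy
      rw [real_inner_comm] at this
      change ψ2 y = _ at e
      linarith)
  linarith

lemma eq_gradient_of_cj {Y : Set (V d)} (hY : IsCompact Y) {ψ : V d → ℝ}
    (hψ : Continuous ψ) {x y : V d} (hx : DifferentiableAt ℝ (cj Y ψ) x) (hy : y ∈ Y)
    (h : cj Y ψ x = ⟪x, y⟫ - ψ y) : y = gradient (cj Y ψ) x := by
  have hmin : IsLocalMin (fun z => cj Y ψ z - ⟪y, z⟫) x := by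
    refine Eventually.of_forall fun z => ?_
    have := le_cj hY hψ z hy
    simp only
    rw [h, real_inner_comm x y, real_inner_comm z y]
    linarith
  have hd : HasFDerivAt (fun z => cj Y ψ z - ⟪y, z⟫) (fderiv ℝ (cj Y ψ) x - innerSL ℝ y) x :=
    hx.hasFDerivAt.sub (innerSL ℝ y).hasFDerivAt
  have h0 := hmin.hasFDerivAt_eq_zero hd
  apply ext_inner_right ℝ
  intro v
  rw [inner_gradient_left, sub_eq_zero.1 h0]
  simp

lemma tendsto_cj_variation {Y : Set (V d)} (hY : IsCompact Y) {ψ ζ : V d → ℝ}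
    (hψ : Continuous ψ) (hζ : Continuous ζ) {x y : V d} (hy : y ∈ Y)
    (h : cj Y ψ x = ⟪x, y⟫ - ψ y) (huniq : ∀ z ∈ Y, cj Y ψ x = ⟪x, z⟫ - ψ z → z = y) :
    Tendsto (fun t : ℝ => (cj Y (fun z => ψ z + t * ζ z) x - cj Y ψ x) / t) (𝓝[>] 0)
      (𝓝 (-ζ y)) := by
  have hne : Y.Nonempty := ⟨y, hy⟩
  rw [tendsto_order]
  constructor
  · intro a ha
    filter_upwards [self_mem_nhdsWithin] with t ht
    have ht' : 0 < t := ht
    have := le_cj hY (ψ := fun z => ψ z + t * ζ z) (by fun_prop) x hy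
    rw [lt_div_iff₀ ht']
    nlinarith
  · intro b hb
    obtain ⟨η, hη, hηb⟩ : ∃ η > 0, -ζ y + η < b := ⟨(b + ζ y) / 2, by linarith, by linarith⟩
    obtain ⟨M, hM⟩ := hY.exists_bound_of_continuousOn hζ.continuousOn
    have hM0 : 0 ≤ M := (norm_nonneg _).trans (hM y hy)
    obtain ⟨δ, hδ, hδp⟩ : ∃ δ > 0, ∀ z ∈ Y, ζ z ≤ ζ y - η → ⟪x, z⟫ - ψ z ≤ cj Y ψ x - δ := by
      set Z := Y ∩ {z | ζ z ≤ ζ y - η} with hZ
      have hZc : IsCompact Z := hY.inter_right (isClosed_le hζ continuous_const)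
      rcases Z.eq_empty_or_nonempty with h0 | h0
      · refine ⟨1, one_pos, fun z hz hz' => ?_⟩
        have : z ∈ Z := ⟨hz, hz'⟩
        rw [h0] at this
        exact this.elim
      · obtain ⟨z0, hz0, -, hmax⟩ := cj_spec hZc h0 hψ x
        have h1 := le_cj hY hψ x hz0.1
        have h2 : cj Y ψ x ≠ ⟪x, z0⟫ - ψ z0 := by
          intro he
          have := huniq z0 hz0.1 he
          have h3 : ζ z0 ≤ ζ y - η := hz0.2
          rw [this] at h3
          linarith
        refine ⟨cj Y ψ x - (⟪x, z0⟫ - ψ z0), sub_pos.2 (lt_of_le_of_ne h1 h2.symm),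
          fun z hz hz' => ?_⟩
        have := hmax z ⟨hz, hz'⟩
        linarith
    have hev : ∀ᶠ t in 𝓝[>] (0:ℝ), t < δ / (2 * M + 1) :=
      mem_nhdsWithin_of_mem_nhds (gt_mem_nhds (by positivity))
    filter_upwards [self_mem_nhdsWithin, hev] with t ht ht2
    have ht' : 0 < t := ht
    rw [lt_div_iff₀ (by positivity)] at ht2
    obtain ⟨z, hz, e⟩ := exists_cj hY hne (ψ := fun z => ψ z + t * ζ z) (by fun_prop) x
    rw [div_lt_iff₀ ht', e]
    have hz1 := abs_le.1 (hM z hz)
    have hy1 := abs_le.1 (hM y hy)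
    by_cases hc : ζ z ≤ ζ y - η
    · have := hδp z hz hc
      nlinarith
    · have := le_cj hY hψ x hz
      push Not at hc
      nlinarith

theorem brenier {K Y : Set (V d)} (hK : IsCompact K) (hKne : K.Nonempty)
    (hY : IsCompact Y) (hne : Y.Nonempty) {R : ℝ≥0} (hR : ∀ x ∈ K, ‖x‖ ≤ R)
    {σ μ : Measure (V d)} [IsProbabilityMeasure σ] [IsProbabilityMeasure μ]
    (hac : σ ≪ volume) (hσ : ∀ᵐ x ∂σ, x ∈ K) (hμ : ∀ᵐ y ∂μ, y ∈ Y) :
    ∃ (ψ : V d → ℝ) (T : V d → V d), LipschitzWith R ψ ∧ OptPair Y σ μ ψ T := by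
  obtain ⟨ψ, hψl, hmin⟩ := exists_dual_min hK hKne hY hne hR hσ hμ
  have hψ := hψl.continuous
  obtain ⟨L, -, hL⟩ := exists_norm_bound hY
  set T : V d → V d := gradient (cj Y ψ) with hT
  have hTm : Measurable T :=
    (InnerProductSpace.toDual ℝ (V d)).symm.continuous.measurable.comp (measurable_fderiv ℝ _)
  have hdiff : ∀ᵐ x ∂σ, DifferentiableAt ℝ (cj Y ψ) x :=
    hac.ae_le (lipschitz_cj hY hne hψ hL).ae_differentiableAt
  have hsat : ∀ᵐ x ∂σ, T x ∈ Y ∧ cj Y ψ x = ⟪x, T x⟫ - ψ (T x) ∧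
      ∀ z ∈ Y, cj Y ψ x = ⟪x, z⟫ - ψ z → z = T x := by
    filter_upwards [hdiff] with x hx
    obtain ⟨y, hy, e⟩ := exists_cj hY hne hψ x
    have := eq_gradient_of_cj hY hψ hx hy e
    refine ⟨?_, ?_, fun z hz hz' => eq_gradient_of_cj hY hψ hx hz hz'⟩
    · rw [hT, ← this]; exact hy
    · rw [hT, ← this]; exact e
  have hvar : ∀ ζ : V d → ℝ, Continuous ζ → ∫ x, ζ (T x) ∂σ ≤ ∫ y, ζ y ∂μ := by
    intro ζ hζ
    obtain ⟨M, hM⟩ := hY.exists_bound_of_continuousOn hζ.continuousOn
    have hc : ∀ t : ℝ, Continuous fun z => ψ z + t * ζ z := fun t => by fun_prop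
    have hlim := tendsto_integral_filter_of_dominated_convergence (μ := σ) (l := 𝓝[>] (0:ℝ))
      (F := fun t x => (cj Y (fun z => ψ z + t * ζ z) x - cj Y ψ x) / t)
      (f := fun x => -ζ (T x)) (fun _ => M)
      (Eventually.of_forall fun t =>
        (((continuous_cj hY hne (hc t)).sub (continuous_cj hY hne hψ)).div_const
          t).aestronglyMeasurable)
      (by
        filter_upwards [self_mem_nhdsWithin] with t ht
        have ht' : 0 < t := ht
        refine Eventually.of_forall fun x => ?_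
        have a1 := cj_le_cj_add hY hne hψ (hc t) (c := t * M) (fun y hy => by
          have := abs_le.1 (hM y hy)
          nlinarith) x
        have a2 := cj_le_cj_add hY hne (hc t) hψ (c := t * M) (fun y hy => by
          have := abs_le.1 (hM y hy)
          nlinarith) x
        rw [Real.norm_eq_abs, abs_div, abs_of_pos ht', div_le_iff₀ ht', abs_le]
        constructor <;> linarith)
      (integrable_const M)
      (by
        filter_upwards [hsat] with x hx
        exact tendsto_cj_variation hY hψ hζ hx.1 hx.2.1 hx.2.2)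
    have hge : ∀ᶠ t in 𝓝[>] (0:ℝ), -∫ y, ζ y ∂μ ≤
        ∫ x, (cj Y (fun z => ψ z + t * ζ z) x - cj Y ψ x) / t ∂σ := by
      filter_upwards [self_mem_nhdsWithin] with t ht
      have ht' : 0 < t := ht
      have h1 := hmin _ (hc t)
      unfold J at h1
      rw [integral_add (integrable_of_continuous hY hμ hψ)
        ((integrable_of_continuous hY hμ hζ).const_mul t), integral_const_mul] at h1
      rw [integral_div, integral_sub (integrable_of_continuous hK hσ (continuous_cj hY hne (hc t)))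
        (integrable_of_continuous hK hσ (continuous_cj hY hne hψ)), le_div_iff₀ ht']
      linarith
    have := ge_of_tendsto hlim hge
    rw [integral_neg] at this
    linarith
  refine ⟨ψ, T, hψl, hψ, hTm, ?_, hsat.mono fun x hx => ⟨hx.1, hx.2.1⟩⟩
  apply ext_of_forall_integral_eq_of_IsFiniteMeasure
  intro f
  rw [integral_map hTm.aemeasurable f.continuous.aestronglyMeasurable]
  have h1 := hvar f f.continuous
  have h2 := hvar (fun y => -f y) f.continuous.neg
  rw [integral_neg, integral_neg] at h2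
  linarith

end Vale.Agent.P074
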