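import Mathlib

open MeasureTheory Set Filter Topology
open scoped ENNReal NNReal RealInnerProductSpace

namespace Vale.Agent.P074

abbrev V (d : ℕ) := EuclideanSpace ℝ (Fin d)

variable {d : ℕ}

/-- Legendre transform with the supremum restricted to `Y`. -/
noncomputable def cj (Y : Set (V d)) (ψ : V d → ℝ) (x : V d) : ℝ :=
  sSup ((fun y => ⟪x, y⟫ - ψ y) '' Y)

lemma cj_spec {Y : Set (V d)} (hY : IsCompact Y) (hne : Y.Nonempty) {ψ : V d → ℝ}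
    (hψ : Continuous ψ) (x : V d) :
    ∃ y ∈ Y, cj Y ψ x = ⟪x, y⟫ - ψ y ∧ ∀ z ∈ Y, ⟪x, z⟫ - ψ z ≤ ⟪x, y⟫ - ψ y := by
  have hc : ContinuousOn (fun y : V d => ⟪x, y⟫ - ψ y) Y := by fun_prop
  obtain ⟨y, hy, h1, h2⟩ := hY.exists_sSup_image_eq_and_ge hne hc
  exact ⟨y, hy, h1, h2⟩

lemma exists_cj {Y : Set (V d)} (hY : IsCompact Y) (hne : Y.Nonempty) {ψ : V d → ℝ}
    (hψ : Continuous ψ) (x : V d) : ∃ y ∈ Y, cj Y ψ x = ⟪x, y⟫ - ψ y := by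
  obtain ⟨y, hy, h1, -⟩ := cj_spec hY hne hψ x
  exact ⟨y, hy, h1⟩

lemma le_cj {Y : Set (V d)} (hY : IsCompact Y) {ψ : V d → ℝ}
    (hψ : Continuous ψ) (x : V d) {y : V d} (hy : y ∈ Y) : ⟪x, y⟫ - ψ y ≤ cj Y ψ x := by
  obtain ⟨z, -, h1, h2⟩ := cj_spec hY ⟨y, hy⟩ hψ x
  rw [h1]
  exact h2 y hy

lemma cj_sub_le {Y : Set (V d)} (hY : IsCompact Y) (hne : Y.Nonempty) {ψ : V d → ℝ}
    (hψ : Continuous ψ) {L : ℝ} (hL : ∀ y ∈ Y, ‖y‖ ≤ L) (x x' : V d) :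
    cj Y ψ x - cj Y ψ x' ≤ L * ‖x - x'‖ := by
  obtain ⟨y, hy, h1⟩ := exists_cj hY hne hψ x
  have h2 := le_cj hY hψ x' hy
  have h3 : ⟪x - x', y⟫ ≤ ‖x - x'‖ * ‖y‖ := real_inner_le_norm _ _
  rw [inner_sub_left] at h3
  have h4 : ‖x - x'‖ * ‖y‖ ≤ ‖x - x'‖ * L := by gcongr; exact hL y hy
  linarith

lemma abs_cj_sub_le {Y : Set (V d)} (hY : IsCompact Y) (hne : Y.Nonempty) {ψ : V d → ℝ}
    (hψ : Continuous ψ) {L : ℝ} (hL : ∀ y ∈ Y, ‖y‖ ≤ L) (x x' : V d) :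
    |cj Y ψ x - cj Y ψ x'| ≤ L * ‖x - x'‖ := by
  rw [abs_le]
  have h1 := cj_sub_le hY hne hψ hL x x'
  have h2 := cj_sub_le hY hne hψ hL x' x
  rw [norm_sub_rev] at h2
  constructor <;> linarith

lemma lipschitz_cj {Y : Set (V d)} (hY : IsCompact Y) (hne : Y.Nonempty) {ψ : V d → ℝ}
    (hψ : Continuous ψ) {L : ℝ≥0} (hL : ∀ y ∈ Y, ‖y‖ ≤ L) : LipschitzWith L (cj Y ψ) := by
  refine LipschitzWith.of_dist_le_mul fun x x' => ?_
  rw [Real.dist_eq, dist_eq_norm]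
  exact abs_cj_sub_le hY hne hψ hL x x'

lemma exists_norm_bound {Y : Set (V d)} (hY : IsCompact Y) :
    ∃ L : ℝ≥0, 0 < L ∧ ∀ y ∈ Y, ‖y‖ ≤ L := by
  obtain ⟨L, hL0, hL⟩ := hY.isBounded.exists_pos_norm_le
  exact ⟨⟨L, hL0.le⟩, hL0, hL⟩

lemma continuous_cj {Y : Set (V d)} (hY : IsCompact Y) (hne : Y.Nonempty) {ψ : V d → ℝ}
    (hψ : Continuous ψ) : Continuous (cj Y ψ) := by
  obtain ⟨L, -, hL⟩ := exists_norm_bound hY
  exact (lipschitz_cj hY hne hψ hL).continuous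

lemma cj_le_cj_add {Y : Set (V d)} (hY : IsCompact Y) (hne : Y.Nonempty) {ψ ψ' : V d → ℝ}
    (hψ : Continuous ψ) (hψ' : Continuous ψ') {c : ℝ} (h : ∀ y ∈ Y, ψ y ≤ ψ' y + c) (x : V d) :
    cj Y ψ' x ≤ cj Y ψ x + c := by
  obtain ⟨y, hy, h1⟩ := exists_cj hY hne hψ' x
  have h2 := le_cj hY hψ x hy
  have h3 := h y hy
  linarith

lemma cj_mid {Y : Set (V d)} (hY : IsCompact Y) (hne : Y.Nonempty) {ψ ψ' : V d → ℝ}
    (hψ : Continuous ψ) (hψ' : Continuous ψ') (x x' : V d) :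
    cj Y (fun y => (ψ y + ψ' y) / 2) ((1 / 2 : ℝ) • (x + x')) ≤ (cj Y ψ x + cj Y ψ' x') / 2 := by
  obtain ⟨y, hy, h1⟩ := exists_cj hY hne (ψ := fun y => (ψ y + ψ' y) / 2) (by fun_prop)
    ((1 / 2 : ℝ) • (x + x'))
  have h2 := le_cj hY hψ x hy
  have h3 := le_cj hY hψ' x' hy
  rw [h1, inner_smul_left, inner_add_left]
  simp only [conj_trivial]
  linarith

lemma integrable_of_continuous {F : Type} [NormedAddCommGroup F] {K : Set (V d)}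
    (hK : IsCompact K) {σ : Measure (V d)}
    [IsFiniteMeasure σ] (hσ : ∀ᵐ x ∂σ, x ∈ K) {g : V d → F} (hg : Continuous g) :
    Integrable g σ := by
  obtain ⟨C, hC⟩ := hK.exists_bound_of_continuousOn hg.continuousOn
  refine Integrable.of_bound hg.aestronglyMeasurable C ?_
  filter_upwards [hσ] with x hx using hC x hx

/-- The Kantorovich dual functional. -/
noncomputable def J (Y : Set (V d)) (σ μ : Measure (V d)) (ψ : V d → ℝ) : ℝ :=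
  ∫ x, cj Y ψ x ∂σ + ∫ y, ψ y ∂μ

/-- A dual potential together with a transport map saturating the Fenchel-Young inequality. -/
structure OptPair (Y : Set (V d)) (σ μ : Measure (V d)) (ψ : V d → ℝ) (T : V d → V d) : Prop where
  cont : Continuous ψ
  meas : Measurable T
  map : σ.map T = μ
  sat : ∀ᵐ x ∂σ, T x ∈ Y ∧ cj Y ψ x = ⟪x, T x⟫ - ψ (T x)

end Vale.Agent.P074
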