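import Vale.Agent.P074.Duality
import Vale.Agent.P074.APLReal

open MeasureTheory Set Filter Topology
open scoped ENNReal NNReal RealInnerProductSpace

namespace Vale.Agent.P074

variable {d : ℕ}

/-- Perturbed source measure `(1 + f) ρ`. -/
noncomputable def dens (K : Set (V d)) (f : V d → ℝ) : Measure (V d) :=
  (unif K).withDensity fun x => ENNReal.ofReal (1 + f x)

/-- Admissible perturbations. -/
structure Pert (K : Set (V d)) (f : V d → ℝ) : Prop where
  meas : Measurable f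
  bd : ∀ x, |f x| ≤ 1 / 2
  mean : ∫ x, f x ∂(unif K) = 0

lemma Pert.pos {K : Set (V d)} {f : V d → ℝ} (h : Pert K f) (x : V d) : 0 < 1 + f x := by
  linarith [(abs_le.1 (h.bd x)).1]

lemma Pert.setIntegral_dens {K : Set (V d)} {f : V d → ℝ} (h : Pert K f) (g : V d → ℝ)
    {A : Set (V d)} (hA : MeasurableSet A) :
    ∫ x in A, g x ∂(dens K f) = ∫ x in A, (1 + f x) * g x ∂(unif K) := by
  have hm := h.meas
  rw [dens, setIntegral_withDensity_eq_setIntegral_toReal_smul (by fun_prop)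
    (Eventually.of_forall fun x => ENNReal.ofReal_lt_top) _ hA]
  congr 1
  ext x
  rw [ENNReal.toReal_ofReal (h.pos x).le, smul_eq_mul]

lemma Pert.integral_dens {K : Set (V d)} {f : V d → ℝ} (h : Pert K f) (g : V d → ℝ) :
    ∫ x, g x ∂(dens K f) = ∫ x, (1 + f x) * g x ∂(unif K) := by
  simpa using h.setIntegral_dens g MeasurableSet.univ

lemma Pert.integrable {K : Set (V d)} {f : V d → ℝ} (h : Pert K f) [IsFiniteMeasure (unif K)] :
    Integrable f (unif K) :=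
  Integrable.of_bound h.meas.aestronglyMeasurable (1 / 2) (Eventually.of_forall h.bd)

lemma Pert.prob {K : Set (V d)} {f : V d → ℝ} (h : Pert K f) [IsProbabilityMeasure (unif K)] :
    IsProbabilityMeasure (dens K f) := by
  constructor
  rw [dens, withDensity_apply _ MeasurableSet.univ, Measure.restrict_univ,
    ← ofReal_integral_eq_lintegral_ofReal (f := fun x => 1 + f x)
      ((integrable_const 1).add h.integrable) (Eventually.of_forall fun x => (h.pos x).le),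
    integral_add (integrable_const 1) h.integrable, h.mean]
  simp

lemma dens_ac (K : Set (V d)) (f : V d → ℝ) : dens K f ≪ unif K :=
  withDensity_absolutelyContinuous _ _

lemma Pert.ac {K : Set (V d)} {f : V d → ℝ} (h : Pert K f) : unif K ≪ dens K f := by
  have hm := h.meas
  refine withDensity_absolutelyContinuous' (by fun_prop) (Eventually.of_forall fun x => ?_)
  simpa using h.pos x

lemma pointwise_ineq {r f P1 P2 Q D H Λ B : ℝ} (hr : 0 < r) (hrf : r ^ 2 = 1 + f)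
    (hf : |f| ≤ 1 / 2) (hP : |P1 - P2| ≤ Λ * D) (hB : P2 + Q ≤ 2 * B) (hB0 : 0 ≤ B)
    (hH : P1 + Q + D ^ 2 / 4 ≤ H) :
    (P1 + (Q + (Q - P2) * f / 2 - (B + 4 * Λ ^ 2) * f ^ 2) / (1 + f) + D ^ 2 / 8) * r ≤ H := by
  have hf' := abs_le.1 hf
  have hr2 : r ≤ 4 / 3 := by nlinarith
  have hfr : f = r ^ 2 - 1 := by linarith
  have hs : (1 - r) ^ 2 ≤ f ^ 2 := by
    have : f ^ 2 = (1 - r) ^ 2 * (1 + r) ^ 2 := by rw [hfr]; ring
    rw [this]
    have h1 : 1 ≤ (1 + r) ^ 2 := by nlinarith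
    nlinarith [sq_nonneg (1 - r)]
  have h1 : (P1 - P2) * (r * (1 - r)) ≥ -(4 * Λ ^ 2 * (1 - r) ^ 2 + D ^ 2 * r ^ 2 / 16) := by
    have a1 : |(P1 - P2) * (r * (1 - r))| ≤ Λ * D * (r * |1 - r|) := by
      rw [abs_mul, abs_mul, abs_of_pos hr]
      gcongr
    have a2 : Λ * D * (r * |1 - r|) ≤ 4 * Λ ^ 2 * (1 - r) ^ 2 + D ^ 2 * r ^ 2 / 16 := by
      rw [← sq_abs (1 - r)]
      nlinarith [sq_nonneg (2 * Λ * |1 - r| - D * r / 4)]
    linarith [(abs_le.1 (a1.trans a2)).1]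
  have h2 : (P2 + Q) * (1 - r) ^ 2 / 2 ≤ B * f ^ 2 := by
    nlinarith [sq_nonneg (1 - r)]
  have h3 : 4 * Λ ^ 2 * (1 - r) ^ 2 ≤ 4 * Λ ^ 2 * f ^ 2 := by gcongr
  have h4 : D ^ 2 * r ^ 2 / 16 + D ^ 2 * r ^ 2 / 8 ≤ D ^ 2 * r / 4 := by
    have : 0 ≤ D ^ 2 * r * (4 / 3 - r) := by
      have : 0 ≤ 4 / 3 - r := by linarith
      positivity
    nlinarith
  have h5 : (P1 + Q + D ^ 2 / 4) * r ≤ H * r := by gcongr
  rw [← hrf]
  have key : P1 * r ^ 2 + (Q + (Q - P2) * f / 2 - (B + 4 * Λ ^ 2) * f ^ 2) + D ^ 2 / 8 * r ^ 2 ≤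
      H * r := by
    have e : P1 * r ^ 2 + (Q + (Q - P2) * f / 2 - (B + 4 * Λ ^ 2) * f ^ 2) + D ^ 2 / 8 * r ^ 2 =
        (P1 + Q) * r - (P1 - P2) * (r * (1 - r)) + (P2 + Q) * (1 - r) ^ 2 / 2 -
          (B + 4 * Λ ^ 2) * f ^ 2 + D ^ 2 * r ^ 2 / 8 := by
      have : (Q - P2) * f / 2 = (Q - P2) * (r ^ 2 - 1) / 2 := by rw [← hfr]
      rw [this]; ring
    rw [e]
    nlinarith
  have e2 : (P1 + (Q + (Q - P2) * f / 2 - (B + 4 * Λ ^ 2) * f ^ 2) / r ^ 2 + D ^ 2 / 8) * r =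
      (P1 * r ^ 2 + (Q + (Q - P2) * f / 2 - (B + 4 * Λ ^ 2) * f ^ 2) + D ^ 2 / 8 * r ^ 2) / r := by
    field_simp
  rw [e2, div_le_iff₀ hr]
  exact key

theorem general_ineq {K : Set (V d)} (hK : IsCompact K) [IsProbabilityMeasure (unif K)]
    {f : V d → ℝ} (hf : Pert K f) {A A' D : Set (V d)} (hA : MeasurableSet A)
    (hA' : MeasurableSet A') (hD : MeasurableSet D) (hAK : A ⊆ K) (hA'K : A' ⊆ K) (hDK : D ⊆ K)
    (hM : unif K A = dens K f A') {P Q h : V d → ℝ} (hP : Continuous P) (hQ : Continuous Q)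
    (hh : Continuous h) {Λ B : ℝ} (hB0 : 0 ≤ B)
    (hΛ : ∀ x ∈ K, ∀ y ∈ K, |P x - P y| ≤ Λ * ‖x - y‖) (hB : ∀ y ∈ K, P y + Q y ≤ 2 * B)
    (hh0 : ∀ z ∈ D, 0 ≤ h z)
    (hyp : ∀ x ∈ A, ∀ y ∈ A', (1 / 2 : ℝ) • (x + y) ∈ D ∧
      P x + Q y + ‖x - y‖ ^ 2 / 4 ≤ h ((1 / 2 : ℝ) • (x + y))) (a : V d) :
    ∫ x in A, (P x + ⟪a, x⟫ / 4 - ‖a‖ ^ 2 / 8) ∂(unif K) +
      (∫ y in A', (Q y + (Q y - P y) * f y / 2 - (B + 4 * Λ ^ 2) * f y ^ 2) ∂(unif K) -
        ∫ y in A', ⟪a, y⟫ / 4 ∂(dens K f)) ≤ ∫ z in D, h z ∂(unif K) := by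
  have hfm := hf.meas
  have := hf.prob
  set m : Measure (V d) := (volume K)⁻¹ • volume with hm
  have hρ : unif K = m.restrict K := by rw [hm, Measure.restrict_smul]; rfl
  have r1 : ∀ {C : Set (V d)}, C ⊆ K → (unif K).restrict C = m.restrict C := fun hC => by
    rw [hρ, Measure.restrict_restrict_of_subset hC]
  set r : V d → ℝ := fun x => √(1 + f x) with hr
  have hr2 : ∀ x, r x ^ 2 = 1 + f x := fun x => Real.sq_sqrt (hf.pos x).le
  have r2 : (dens K f).restrict A' =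
      (m.withDensity fun x => ENNReal.ofReal (r x ^ 2)).restrict A' := by
    rw [dens, restrict_withDensity hA', restrict_withDensity hA', r1 hA'K]
    simp only [hr2]
  set G : V d → ℝ := fun y => Q y + (Q y - P y) * f y / 2 - (B + 4 * Λ ^ 2) * f y ^ 2 with hG
  have mG : Measurable G := by fun_prop
  obtain ⟨B1, hB1⟩ := hK.exists_bound_of_continuousOn
    (f := fun x => P x + ⟪a, x⟫ / 4 - ‖a‖ ^ 2 / 8) (by fun_prop)
  obtain ⟨B2, hB2⟩ := hK.exists_bound_of_continuousOn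
    (f := fun x => |Q x| + |Q x - P x| + (B + 4 * Λ ^ 2)) (by fun_prop)
  obtain ⟨B3, hB3⟩ := hK.exists_bound_of_continuousOn
    (f := fun x => ⟪a, x⟫ / 4) (by fun_prop)
  have hGb : ∀ y ∈ K, |G y| ≤ B2 := by
    intro y hy
    have b1 := hB2 y hy
    have b2 := abs_le.1 (hf.bd y)
    have b3 : |(Q y - P y) * f y / 2| ≤ |Q y - P y| := by
      rw [abs_div, abs_mul, abs_two]
      nlinarith [hf.bd y, abs_nonneg (Q y - P y), abs_nonneg (f y)]
    have b4 : |(B + 4 * Λ ^ 2) * f y ^ 2| ≤ B + 4 * Λ ^ 2 := by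
      rw [abs_of_nonneg (by positivity)]
      have : f y ^ 2 ≤ 1 := by nlinarith
      have : 0 ≤ B + 4 * Λ ^ 2 := by positivity
      nlinarith
    have b5 := le_abs_self (|Q y| + |Q y - P y| + (B + 4 * Λ ^ 2))
    rw [Real.norm_eq_abs] at b1
    have b6 := abs_sub (Q y + (Q y - P y) * f y / 2) ((B + 4 * Λ ^ 2) * f y ^ 2)
    have b7 := abs_add_le (Q y) ((Q y - P y) * f y / 2)
    simp only [hG]
    linarith
  have hGb' : ∀ y ∈ K, |G y / (1 + f y)| ≤ 2 * B2 := by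
    intro y hy
    rw [abs_div, abs_of_pos (hf.pos y), div_le_iff₀ (hf.pos y)]
    have b2 := abs_le.1 (hf.bd y)
    have := hGb y hy
    nlinarith [abs_nonneg (G y)]
  have key := aplR m (apl_smul _ (apl_euclidean d) _) A A' D hA hA' hD r
    (fun x => P x + ⟪a, x⟫ / 4 - ‖a‖ ^ 2 / 8) (fun y => G y / (1 + f y) - ⟪a, y⟫ / 4) h
    (by fun_prop) (by fun_prop) (by fun_prop) hh.measurable (fun x _ => Real.sqrt_nonneg _)
    (by
      rw [← Measure.restrict_apply_univ, ← r1 hAK, ← Measure.restrict_apply_univ A', ← r2,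
        Measure.restrict_apply_univ, Measure.restrict_apply_univ, hM])
    (by
      rw [← Measure.restrict_apply_univ, ← r1 hAK]
      exact measure_ne_top _ _)
    (|B1| + |2 * B2| + |B3| + 1) (by positivity)
    (fun x hx => by
      have := hB1 x (hAK hx)
      rw [Real.norm_eq_abs] at this
      linarith [le_abs_self B1, abs_nonneg (2 * B2), abs_nonneg B3])
    (fun y hy => by
      have h1 := hB3 y (hA'K hy)
      have h2 := hGb' y (hA'K hy)
      rw [Real.norm_eq_abs] at h1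
      have h3 := abs_sub (G y / (1 + f y)) (⟪a, y⟫ / 4)
      linarith [le_abs_self (2 * B2), abs_nonneg B1, le_abs_self B3])
    hh0
    (by
      rw [IntegrableOn, ← r1 hDK]
      exact (integrable_of_continuous hK (unif_ae_mem hK) hh).integrableOn)
    (fun x hx y hy => by
      obtain ⟨h1, h2⟩ := hyp x hx y hy
      refine ⟨h1, le_trans ?_ (pointwise_ineq (r := r y) (f := f y) (Real.sqrt_pos.2 (hf.pos y))
        (hr2 y) (hf.bd y) (hΛ x (hAK hx) y (hA'K hy)) (hB y (hA'K hy)) hB0 h2)⟩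
      apply mul_le_mul_of_nonneg_right _ (Real.sqrt_nonneg _)
      have h3 := norm_sub_sq_real (x - y) a
      rw [real_inner_comm, inner_sub_right] at h3
      have h4 := sq_nonneg ‖x - y - a‖
      simp only [hG]
      linarith)
  rw [← r1 hAK, ← r1 hDK, ← r2] at key
  have hae : ∀ᵐ y ∂((dens K f).restrict A'), y ∈ K :=
    (ae_restrict_iff' hA').2 (Eventually.of_forall fun y hy => hA'K hy)
  rw [integral_sub (Integrable.of_bound (Measurable.aestronglyMeasurable (by fun_prop)) (2 * B2)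
      (hae.mono fun y hy => hGb' y hy))
    (Integrable.of_bound (by fun_prop) B3 (hae.mono fun y hy => hB3 y hy)),
    hf.setIntegral_dens (fun y => G y / (1 + f y)) hA'] at key
  have e : ∀ y, (1 + f y) * (G y / (1 + f y)) = G y := fun y => by
    have := (hf.pos y).ne'
    field_simp
  simp only [e] at key
  exact key

end Vale.Agent.P074
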