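import Vale.Agent.P074.Brenier
import Vale.Agent.P074.Defs

open MeasureTheory Set Filter Topology
open scoped ENNReal NNReal RealInnerProductSpace

namespace Vale.Agent.P074

variable {d : ℕ}

lemma ae_mem_of_map {Ω : Type} [MeasurableSpace Ω] {Y : Set (V d)} {σ : Measure Ω}
    {μ : Measure (V d)} {S : Ω → V d} (hS : Measurable S)
    (hmap : σ.map S = μ) (hμ : ∀ᵐ y ∂μ, y ∈ Y) : ∀ᵐ x ∂σ, S x ∈ Y := by
  rw [← hmap] at hμ
  exact ae_of_ae_map hS.aemeasurable hμ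

lemma integrable_inner_map {K Y : Set (V d)} (hK : IsCompact K) (hY : IsCompact Y)
    {σ : Measure (V d)} [IsFiniteMeasure σ] (hσ : ∀ᵐ x ∂σ, x ∈ K) {S : V d → V d}
    (hS : Measurable S) (hSY : ∀ᵐ x ∂σ, S x ∈ Y) : Integrable (fun x => ⟪x, S x⟫) σ := by
  obtain ⟨R, -, hR⟩ := exists_norm_bound hK
  obtain ⟨L, -, hL⟩ := exists_norm_bound hY
  refine Integrable.of_bound (by fun_prop) (R * L) ?_
  filter_upwards [hσ, hSY] with x h1 h2
  refine (norm_inner_le_norm _ _).trans ?_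
  exact mul_le_mul (hR x h1) (hL _ h2) (norm_nonneg _) R.2

lemma integrable_comp_map {Ω : Type} [MeasurableSpace Ω] {Y : Set (V d)} (hY : IsCompact Y)
    {σ : Measure Ω} [IsFiniteMeasure σ] {S : Ω → V d}
    (hS : Measurable S) (hSY : ∀ᵐ x ∂σ, S x ∈ Y) {ψ : V d → ℝ} (hψ : Continuous ψ) :
    Integrable (fun x => ψ (S x)) σ := by
  obtain ⟨C, hC⟩ := hY.exists_bound_of_continuousOn hψ.continuousOn
  refine Integrable.of_bound (hψ.measurable.comp hS).aestronglyMeasurable C ?_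
  filter_upwards [hSY] with x hx using hC _ hx

lemma J_eq_integral {K Y : Set (V d)} (hK : IsCompact K) (hY : IsCompact Y) (hne : Y.Nonempty)
    {σ μ : Measure (V d)} [IsFiniteMeasure σ] (hσ : ∀ᵐ x ∂σ, x ∈ K) {S : V d → V d}
    (hS : Measurable S) (hmap : σ.map S = μ) (hSY : ∀ᵐ x ∂σ, S x ∈ Y) {ψ : V d → ℝ}
    (hψ : Continuous ψ) : J Y σ μ ψ = ∫ x, (cj Y ψ x + ψ (S x)) ∂σ := by
  rw [integral_add (integrable_of_continuous hK hσ (continuous_cj hY hne hψ))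
    (integrable_comp_map hY hS hSY hψ), J, ← hmap,
    integral_map hS.aemeasurable hψ.aestronglyMeasurable]

lemma weak_duality {K Y : Set (V d)} (hK : IsCompact K) (hY : IsCompact Y) (hne : Y.Nonempty)
    {σ μ : Measure (V d)} [IsFiniteMeasure σ] (hσ : ∀ᵐ x ∂σ, x ∈ K) {S : V d → V d}
    (hS : Measurable S) (hmap : σ.map S = μ) (hSY : ∀ᵐ x ∂σ, S x ∈ Y) {ψ : V d → ℝ}
    (hψ : Continuous ψ) : ∫ x, ⟪x, S x⟫ ∂σ ≤ J Y σ μ ψ := by
  rw [J_eq_integral hK hY hne hσ hS hmap hSY hψ]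
  refine integral_mono_ae (integrable_inner_map hK hY hσ hS hSY)
    ((integrable_of_continuous hK hσ (continuous_cj hY hne hψ)).add
    (integrable_comp_map hY hS hSY hψ)) ?_
  filter_upwards [hSY] with x hx
  have := le_cj hY hψ x hx
  linarith

lemma OptPair.J_eq {K Y : Set (V d)} (hK : IsCompact K) (hY : IsCompact Y) (hne : Y.Nonempty)
    {σ μ : Measure (V d)} [IsFiniteMeasure σ] (hσ : ∀ᵐ x ∂σ, x ∈ K) {T : V d → V d}
    {ψ : V d → ℝ} (h : OptPair Y σ μ ψ T) : J Y σ μ ψ = ∫ x, ⟪x, T x⟫ ∂σ := by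
  rw [J_eq_integral hK hY hne hσ h.meas h.map (h.sat.mono fun x hx => hx.1) h.cont]
  refine integral_congr_ae ?_
  filter_upwards [h.sat] with x hx
  linarith [hx.2]

lemma OptPair.J_le {K Y : Set (V d)} (hK : IsCompact K) (hY : IsCompact Y) (hne : Y.Nonempty)
    {σ μ : Measure (V d)} [IsFiniteMeasure σ] (hσ : ∀ᵐ x ∂σ, x ∈ K) {T : V d → V d}
    {ψ : V d → ℝ} (h : OptPair Y σ μ ψ T) {ψ' : V d → ℝ} (hψ' : Continuous ψ') :
    J Y σ μ ψ ≤ J Y σ μ ψ' := by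
  rw [h.J_eq hK hY hne hσ]
  exact weak_duality hK hY hne hσ h.meas h.map (h.sat.mono fun x hx => hx.1) hψ'

lemma cost_eq {K Y : Set (V d)} (hK : IsCompact K) (hY : IsCompact Y)
    {σ μ : Measure (V d)} [IsFiniteMeasure σ] (hσ : ∀ᵐ x ∂σ, x ∈ K) {S : V d → V d}
    (hS : Measurable S) (hmap : σ.map S = μ) (hSY : ∀ᵐ x ∂σ, S x ∈ Y) :
    0 ≤ ∫ x, ‖x‖ ^ 2 ∂σ - 2 * ∫ x, ⟪x, S x⟫ ∂σ + ∫ y, ‖y‖ ^ 2 ∂μ ∧
    ∫⁻ x, edist x (S x) ^ 2 ∂σ =
      ENNReal.ofReal (∫ x, ‖x‖ ^ 2 ∂σ - 2 * ∫ x, ⟪x, S x⟫ ∂σ + ∫ y, ‖y‖ ^ 2 ∂μ) := by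
  have i1 : Integrable (fun x : V d => ‖x‖ ^ 2) σ := integrable_of_continuous hK hσ (by fun_prop)
  have i2 := (integrable_inner_map hK hY hσ hS hSY).const_mul 2
  have i3 : Integrable (fun x : V d => ‖S x‖ ^ 2) σ :=
    integrable_comp_map hY hS hSY (ψ := fun y => ‖y‖ ^ 2) (by fun_prop)
  have e : ∫ x, ‖x‖ ^ 2 ∂σ - 2 * ∫ x, ⟪x, S x⟫ ∂σ + ∫ y, ‖y‖ ^ 2 ∂μ =
      ∫ x, ‖x - S x‖ ^ 2 ∂σ := by
    rw [← hmap, integral_map hS.aemeasurable (by fun_prop), ← integral_const_mul,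
      ← integral_sub i1 i2,
      ← integral_add (f := fun x => ‖x‖ ^ 2 - 2 * ⟪x, S x⟫) (i1.sub i2) i3]
    simp only [norm_sub_sq_real]
  have i4 : Integrable (fun x : V d => ‖x - S x‖ ^ 2) σ := by
    simp only [norm_sub_sq_real]
    exact (i1.sub i2).add i3
  rw [e]
  refine ⟨integral_nonneg fun x => by positivity, ?_⟩
  rw [ofReal_integral_eq_lintegral_ofReal i4 (Eventually.of_forall fun x => by positivity)]
  congr 1
  ext x
  rw [ENNReal.ofReal_pow (norm_nonneg _), ofReal_norm, edist_eq_enorm_sub]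

theorem OptPair.isOptimalMap {K Y : Set (V d)} (hK : IsCompact K) (hY : IsCompact Y)
    (hne : Y.Nonempty) {σ μ : Measure (V d)} [IsFiniteMeasure σ] (hσ : ∀ᵐ x ∂σ, x ∈ K)
    {T : V d → V d} {ψ : V d → ℝ} (h : OptPair Y σ μ ψ T) : IsOptimalMap σ μ T := by
  refine ⟨h.meas, h.map, fun S hS hmap => ?_⟩
  have hTY := h.sat.mono fun x hx => hx.1
  have hμ : ∀ᵐ y ∂μ, y ∈ Y := by
    rw [← h.map]
    exact (ae_map_iff h.meas.aemeasurable hY.measurableSet).2 hTY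
  have hSY := ae_mem_of_map hS hmap hμ
  rw [(cost_eq hK hY hσ hS hmap hSY).2, (cost_eq hK hY hσ h.meas h.map hTY).2]
  apply ENNReal.ofReal_le_ofReal
  have h1 := weak_duality hK hY hne hσ hS hmap hSY h.cont
  rw [h.J_eq hK hY hne hσ] at h1
  linarith

theorem OptPair.of_isOptimalMap {K Y : Set (V d)} (hK : IsCompact K) (hY : IsCompact Y)
    (hne : Y.Nonempty) {σ μ : Measure (V d)} [IsFiniteMeasure σ] (hσ : ∀ᵐ x ∂σ, x ∈ K)
    {T S : V d → V d} {ψ : V d → ℝ} (h : OptPair Y σ μ ψ T) (hS : IsOptimalMap σ μ S) :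
    OptPair Y σ μ ψ S := by
  have hTY := h.sat.mono fun x hx => hx.1
  have hμ : ∀ᵐ y ∂μ, y ∈ Y := by
    rw [← h.map]
    exact (ae_map_iff h.meas.aemeasurable hY.measurableSet).2 hTY
  have hSY := ae_mem_of_map hS.1 hS.2.1 hμ
  refine ⟨h.cont, hS.1, hS.2.1, ?_⟩
  have h1 := hS.2.2 T h.meas h.map
  rw [(cost_eq hK hY hσ hS.1 hS.2.1 hSY).2, (cost_eq hK hY hσ h.meas h.map hTY).2,
    ENNReal.ofReal_le_ofReal_iff (cost_eq hK hY hσ h.meas h.map hTY).1] at h1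
  have h2 := h.J_eq hK hY hne hσ
  rw [J_eq_integral hK hY hne hσ hS.1 hS.2.1 hSY h.cont] at h2
  have i1 : Integrable (fun x => cj Y ψ x + ψ (S x)) σ :=
    (integrable_of_continuous hK hσ (continuous_cj hY hne h.cont)).add
    (integrable_comp_map hY hS.1 hSY h.cont)
  have i2 := integrable_inner_map hK hY hσ hS.1 hSY
  have hnn : 0 ≤ᵐ[σ] fun x => (cj Y ψ x + ψ (S x)) - ⟪x, S x⟫ := by
    filter_upwards [hSY] with x hx
    have := le_cj hY h.cont x hx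
    simp only [Pi.zero_apply]
    linarith
  have h3 : ∫ x, ((cj Y ψ x + ψ (S x)) - ⟪x, S x⟫) ∂σ = 0 := by
    apply le_antisymm _ (integral_nonneg_of_ae hnn)
    rw [integral_sub i1 i2]
    linarith
  rw [integral_eq_zero_iff_of_nonneg_ae hnn (i1.sub i2)] at h3
  filter_upwards [hSY, h3] with x hx hx'
  refine ⟨hx, ?_⟩
  simp only [Pi.zero_apply] at hx'
  linarith

lemma volume_pos_of_interior {K : Set (V d)} (h : (interior K).Nonempty) : volume K ≠ 0 :=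
  (Measure.measure_pos_of_nonempty_interior volume h).ne'

lemma unif_prob {K : Set (V d)} (hK : IsCompact K) (h : (interior K).Nonempty) :
    IsProbabilityMeasure (unif K) := by
  constructor
  simp only [unif, Measure.smul_apply, Measure.restrict_apply_univ, smul_eq_mul]
  exact ENNReal.inv_mul_cancel (volume_pos_of_interior h) hK.measure_lt_top.ne

lemma unif_ac (K : Set (V d)) : unif K ≪ volume :=
  (Measure.smul_absolutelyContinuous).trans Measure.absolutelyContinuous_restrict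

lemma unif_ae_mem {K : Set (V d)} (hK : IsCompact K) : ∀ᵐ x ∂(unif K), x ∈ K :=
  Measure.ae_smul_measure (ae_restrict_mem hK.measurableSet) _

theorem exists_optimalMap {K Y : Set (V d)} (hK : IsCompact K) (hint : (interior K).Nonempty)
    (hY : IsCompact Y) (μ : Measure (V d)) [IsProbabilityMeasure μ] (hμ : μ Y = 1) :
    ∃ T, IsOptimalMap (unif K) μ T := by
  have := unif_prob hK hint
  have hμ' : ∀ᵐ y ∂μ, y ∈ Y := (mem_ae_iff_prob_eq_one hY.measurableSet).2 hμ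
  have hne : Y.Nonempty := by
    obtain ⟨y, hy⟩ := hμ'.exists
    exact ⟨y, hy⟩
  obtain ⟨R, -, hR⟩ := exists_norm_bound hK
  obtain ⟨ψ, T, -, h⟩ := brenier hK (hint.mono interior_subset) hY hne hR (unif_ac K)
    (unif_ae_mem hK) hμ'
  exact ⟨T, h.isOptimalMap hK hY hne (unif_ae_mem hK)⟩

end Vale.Agent.P074
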