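import Vale.Agent.P074.Duality

open MeasureTheory Set Filter Topology
open scoped ENNReal NNReal RealInnerProductSpace

namespace Vale.Agent.P074

variable {d : ℕ}

lemma eLpNorm_two_eq {Ω F : Type} [MeasurableSpace Ω] [NormedAddCommGroup F] (f : Ω → F)
    (m : Measure Ω) : eLpNorm f 2 m = (∫⁻ x, ‖f x‖ₑ ^ 2 ∂m) ^ (1 / 2 : ℝ) := by
  rw [eLpNorm_eq_lintegral_rpow_enorm_toReal (by norm_num) (by norm_num)]
  simp

def box (a b : Fin d → ℝ) : Set (V d) := WithLp.ofLp ⁻¹' Icc a b

lemma mem_box {a b : Fin d → ℝ} {x : V d} : x ∈ box a b ↔ ∀ i, a i ≤ x i ∧ x i ≤ b i := by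
  simp only [box, mem_preimage, mem_Icc, Pi.le_def]
  exact ⟨fun h i => ⟨h.1 i, h.2 i⟩, fun h => ⟨fun i => (h i).1, fun i => (h i).2⟩⟩

lemma isCompact_box (a b : Fin d → ℝ) : IsCompact (box a b) :=
  (EuclideanSpace.equiv (Fin d) ℝ).toHomeomorph.isCompact_preimage.2 isCompact_Icc

lemma volume_box (a b : Fin d → ℝ) : volume (box a b) = ∏ i, ENNReal.ofReal (b i - a i) := by
  rw [box, (PiLp.volume_preserving_ofLp (Fin d)).measure_preimage
    measurableSet_Icc.nullMeasurableSet, Real.volume_Icc_pi]

def cube (d : ℕ) : Set (V d) := box (fun _ => -1) (fun _ => 1)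

lemma convex_cube : Convex ℝ (cube d) :=
  (convex_Icc _ _).linear_preimage (EuclideanSpace.equiv (Fin d) ℝ).toLinearMap

lemma interior_cube : (interior (cube d)).Nonempty := by
  refine ⟨0, mem_interior.2 ⟨Metric.ball 0 1, fun x hx => ?_, Metric.isOpen_ball, by simp⟩⟩
  rw [cube, mem_box]
  intro i
  have h1 := PiLp.norm_apply_le x i
  rw [mem_ball_zero_iff] at hx
  exact abs_le.1 (h1.trans hx.le)

lemma unif_box (a b : Fin d → ℝ) (ha : ∀ i, -1 ≤ a i) (hb : ∀ i, b i ≤ 1) :
    unif (cube d) (box a b) = ∏ i, ENNReal.ofReal ((b i - a i) / 2) := by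
  have hsub : box a b ⊆ cube d := fun x hx => by
    rw [cube, mem_box]
    rw [mem_box] at hx
    exact fun i => ⟨(ha i).trans (hx i).1, (hx i).2.trans (hb i)⟩
  rw [unif, Measure.smul_apply, Measure.restrict_apply (isCompact_box a b).measurableSet,
    inter_eq_left.2 hsub, cube, volume_box, volume_box, smul_eq_mul,
    ENNReal.prod_inv_distrib (fun i _ j _ _ => Or.inr ENNReal.ofReal_ne_top) , ← Finset.prod_mul_distrib]
  refine Finset.prod_congr rfl fun i _ => ?_
  rw [ENNReal.ofReal_div_of_pos (by norm_num), div_eq_mul_inv, mul_comm]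
  norm_num

/-- The three-atom optimal maps. -/
noncomputable def Tm (i j : Fin d) (ε δ : ℝ) (x : V d) : V d :=
  if δ * (1 + ε * x j) < x i then EuclideanSpace.single i 1
  else if x i < -(δ * (1 + ε * x j)) then EuclideanSpace.single i (-1)
  else EuclideanSpace.single j (ε * δ)

lemma measurable_Tm (i j : Fin d) (ε δ : ℝ) : Measurable (Tm i j ε δ) := by
  unfold Tm
  refine Measurable.ite (measurableSet_lt (by fun_prop) (by fun_prop)) measurable_const
    (Measurable.ite (measurableSet_lt (by fun_prop) (by fun_prop)) measurable_const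
      measurable_const)

lemma Tm_optimal {i j : Fin d} (hij : i ≠ j) {ε δ : ℝ} (hε : ε = 1 ∨ ε = -1) (hδ : 0 ≤ δ) :
    IsOptimalMap (unif (cube d)) ((unif (cube d)).map (Tm i j ε δ)) (Tm i j ε δ) := by
  have : IsProbabilityMeasure (unif (cube d)) := unif_prob (isCompact_box _ _) interior_cube
  set Y : Set (V d) := {EuclideanSpace.single i 1, EuclideanSpace.single i (-1),
    EuclideanSpace.single j (ε * δ)} with hYdef
  have hY : IsCompact Y := (toFinite Y).isCompact
  have hψ : Continuous fun y : V d => -(ε * y j) := by fun_prop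
  have hε2 : ε * ε = 1 := by rcases hε with h | h <;> simp [h]
  refine OptPair.isOptimalMap (K := cube d) (Y := Y) (ψ := fun y => -(ε * y j))
    (isCompact_box _ _) hY ⟨_, Or.inl rfl⟩ (unif_ae_mem (isCompact_box _ _))
    ⟨hψ, measurable_Tm _ _ _ _, rfl, ?_⟩
  filter_upwards [unif_ae_mem (K := cube d) (isCompact_box _ _)] with x hx
  have hmem : Tm i j ε δ x ∈ Y := by
    unfold Tm
    split_ifs <;> simp [hYdef]
  refine ⟨hmem, le_antisymm ?_ (le_cj hY hψ x hmem)⟩
  obtain ⟨y, hy, e⟩ := exists_cj hY ⟨_, hmem⟩ hψ x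
  rw [e]
  rw [cube, mem_box] at hx
  have hpos : 0 ≤ δ * (1 + ε * x j) := by
    apply mul_nonneg hδ
    rcases hε with h | h <;> rw [h] <;> linarith [(hx j).1, (hx j).2]
  have v1 : ⟪x, EuclideanSpace.single i (1:ℝ)⟫ - -(ε * (EuclideanSpace.single i (1:ℝ) : V d) j) =
      x i := by
    simp [EuclideanSpace.inner_single_right, hij.symm]
  have v2 : ⟪x, EuclideanSpace.single i (-1:ℝ)⟫ -
      -(ε * (EuclideanSpace.single i (-1:ℝ) : V d) j) = -x i := by
    simp [EuclideanSpace.inner_single_right, hij.symm]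
  have v3 : ⟪x, EuclideanSpace.single j (ε * δ)⟫ -
      -(ε * (EuclideanSpace.single j (ε * δ) : V d) j) = δ * (1 + ε * x j) := by
    simp only [EuclideanSpace.inner_single_right, conj_trivial, PiLp.single_eq_same]
    linear_combination δ * hε2
  unfold Tm
  rcases hy with rfl | rfl | rfl <;> split_ifs <;>
    simp only [v1, v2, v3] <;> linarith

noncomputable def refl' (j : Fin d) : V d ≃ₗᵢ[ℝ] V d :=
  LinearIsometryEquiv.piLpCongrRight 2 fun k =>
    if k = j then LinearIsometryEquiv.neg ℝ else LinearIsometryEquiv.refl ℝ ℝ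

lemma refl'_apply (j k : Fin d) (x : V d) : refl' j x k = if k = j then -x k else x k := by
  simp only [refl', LinearIsometryEquiv.piLpCongrRight_apply]
  split_ifs <;> simp

lemma refl'_preserving (j : Fin d) :
    MeasurePreserving (refl' j) (unif (cube d)) (unif (cube d)) := by
  have h1 : refl' j ⁻¹' cube d = cube d := by
    ext x
    simp only [mem_preimage, cube, mem_box, refl'_apply]
    refine forall_congr' fun k => ?_
    split_ifs
    · constructor <;> rintro ⟨h1, h2⟩ <;> constructor <;> linarith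
    · rfl
  have h2 := (refl' j).measurePreserving.restrict_preimage
    (isCompact_box (d := d) (fun _ => -1) (fun _ => 1)).measurableSet
  change MeasurePreserving _ (volume.restrict (refl' j ⁻¹' cube d)) (volume.restrict (cube d)) at h2
  rw [h1] at h2
  exact h2.smul_measure _

lemma W2_Tm_le {i j : Fin d} (hij : i ≠ j) {δ : ℝ} (hδ : 0 ≤ δ) (hδ2 : δ ≤ 1 / 2) :
    W2 ((unif (cube d)).map (Tm i j 1 δ)) ((unif (cube d)).map (Tm i j (-1) δ)) ≤
      ENNReal.ofReal (8 * δ ^ 3) ^ (1 / 2 : ℝ) := by
  have m1 := measurable_Tm i j 1 δ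
  have m2 := measurable_Tm i j (-1) δ
  have m3 : Measurable (refl' j) := (refl' j).continuous.measurable
  have m4 : Measurable fun x => (Tm i j 1 δ x, Tm i j (-1) δ (refl' j x)) :=
    m1.prodMk (m2.comp m3)
  refine iInf₂_le_of_le ((unif (cube d)).map fun x => (Tm i j 1 δ x, Tm i j (-1) δ (refl' j x)))
    ⟨?_, ?_⟩ ?_
  · rw [Measure.map_map measurable_fst m4]
    rfl
  · rw [Measure.map_map measurable_snd m4]
    conv_rhs => rw [← (refl'_preserving j).map_eq, Measure.map_map m2 m3]
    rfl
  gcongr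
  simp only [edist_eq_enorm_sub]
  rw [lintegral_map (by fun_prop) m4]
  set B := box (Function.update (fun _ => (-1:ℝ)) i (-(2 * δ)))
    (Function.update (fun _ => (1:ℝ)) i (2 * δ)) with hB
  have hBm : MeasurableSet B := (isCompact_box _ _).measurableSet
  have hvol : unif (cube d) B = ENNReal.ofReal (2 * δ) := by
    rw [hB, unif_box, Finset.prod_eq_single i]
    · simp
    · intro k _ hk
      simp [Function.update_of_ne hk]
    · simp
    · intro k
      by_cases hk : k = i
      · subst hk; simp; linarith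
      · simp [Function.update_of_ne hk]
    · intro k
      by_cases hk : k = i
      · subst hk; simp; linarith
      · simp [Function.update_of_ne hk]
  calc ∫⁻ x, ‖Tm i j 1 δ x - Tm i j (-1) δ (refl' j x)‖ₑ ^ 2 ∂(unif (cube d))
      ≤ ∫⁻ x, B.indicator (fun _ => ENNReal.ofReal (4 * δ ^ 2)) x ∂(unif (cube d)) := by
        refine lintegral_mono_ae ?_
        filter_upwards [unif_ae_mem (K := cube d) (isCompact_box _ _)] with x hx
        rw [cube, mem_box] at hx
        have e1 : refl' j x j = -x j := by simp [refl'_apply]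
        have e2 : refl' j x i = x i := by simp [refl'_apply, hij]
        unfold Tm
        rw [e1, e2]
        simp only [one_mul, neg_mul, neg_neg]
        split_ifs with h1 h2
        · simp
        · simp
        · have hxB : x ∈ B := by
            rw [hB, mem_box]
            intro k
            by_cases hk : k = i
            · subst hk
              simp only [Function.update_self]
              constructor <;> nlinarith [(hx j).1, (hx j).2]
            · simp only [Function.update_of_ne hk]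
              exact hx k
          rw [indicator_of_mem hxB, ← ofReal_norm, ← ENNReal.ofReal_pow (norm_nonneg _),
            ← dist_eq_norm, PiLp.dist_single_same, Real.dist_eq, sq_abs]
          apply ENNReal.ofReal_le_ofReal
          nlinarith
    _ = ENNReal.ofReal (8 * δ ^ 3) := by
        rw [lintegral_indicator_const hBm, hvol, ← ENNReal.ofReal_mul (by positivity)]
        congr 1
        ring

lemma le_eLpNorm_Tm {i j : Fin d} (hij : i ≠ j) {δ : ℝ} (hδ : 0 < δ) (hδ2 : δ ≤ 1 / 2) :
    ENNReal.ofReal (δ / 16) ^ (1 / 2 : ℝ) ≤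
      eLpNorm (fun x => Tm i j 1 δ x - Tm i j (-1) δ x) 2 (unif (cube d)) := by
  rw [eLpNorm_two_eq]
  gcongr
  set B := box (Function.update (Function.update (fun _ => (-1:ℝ)) i δ) j (1 / 2))
    (Function.update (fun _ => (1:ℝ)) i (3 / 2 * δ)) with hB
  have hBm : MeasurableSet B := (isCompact_box _ _).measurableSet
  have hvol : unif (cube d) B = ENNReal.ofReal (δ / 16) := by
    rw [hB, unif_box, Finset.prod_eq_mul i j hij]
    · simp only [Function.update_self, Function.update_of_ne hij, Function.update_of_ne hij.symm]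
      rw [← ENNReal.ofReal_mul (by linarith)]
      congr 1
      ring
    · intro k _ hk
      simp [Function.update_of_ne hk.1, Function.update_of_ne hk.2]
    · simp
    · simp
    · intro k
      by_cases hk : k = j
      · subst hk; simp; linarith
      by_cases hk' : k = i
      · subst hk'; simp [Function.update_of_ne hk]; linarith
      · simp [Function.update_of_ne hk, Function.update_of_ne hk']
    · intro k
      by_cases hk : k = i
      · subst hk; simp; linarith
      · simp [Function.update_of_ne hk]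
  rw [← hvol, ← lintegral_indicator_one hBm]
  refine lintegral_mono fun x => ?_
  by_cases hx : x ∈ B
  swap
  · simp [hx]
  rw [indicator_of_mem hx]
  rw [hB, mem_box] at hx
  have h1 := hx i
  have h2 := hx j
  simp only [Function.update_self, Function.update_of_ne hij, Function.update_of_ne hij.symm]
    at h1 h2
  have e1 : Tm i j 1 δ x = EuclideanSpace.single j (1 * δ) := by
    unfold Tm
    rw [if_neg (by nlinarith), if_neg (by nlinarith)]
  have e2 : Tm i j (-1) δ x = EuclideanSpace.single i 1 := by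
    unfold Tm
    rw [if_pos (by nlinarith)]
  simp only [e1, e2, Pi.one_apply]
  have h3 := PiLp.norm_apply_le
    (EuclideanSpace.single j (1 * δ) - EuclideanSpace.single i (1:ℝ) : V d) i
  have h4 : (EuclideanSpace.single j (1 * δ) - EuclideanSpace.single i (1:ℝ) : V d) i = -1 := by
    simp [hij]
  rw [h4, norm_neg, norm_one] at h3
  refine one_le_pow₀ ?_
  rw [← ofReal_norm, ENNReal.one_le_ofReal]
  exact h3

lemma norm_Tm_le (i j : Fin d) {ε δ : ℝ} (hε : ε = 1 ∨ ε = -1) (hδ : 0 ≤ δ) (hδ2 : δ ≤ 1 / 2)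
    (x : V d) : Tm i j ε δ x ∈ Metric.closedBall (0 : V d) 1 := by
  rw [mem_closedBall_zero_iff]
  unfold Tm
  split_ifs
  · simp
  · simp
  · rcases hε with h | h <;> simp [h, abs_of_nonneg hδ] <;> linarith

theorem le_third_of_admissible (hd : 2 ≤ d) {α : ℝ} (h : Admissible d α) : α ≤ 1 / 3 := by
  by_contra hα
  push Not at hα
  set i : Fin d := ⟨0, by omega⟩
  set j : Fin d := ⟨1, by omega⟩
  have hij : i ≠ j := by simp [i, j]
  have : IsProbabilityMeasure (unif (cube d)) := unif_prob (isCompact_box _ _) interior_cube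
  obtain ⟨C, hC⟩ := h (cube d) (isCompact_box _ _) convex_cube interior_cube
    (Metric.closedBall 0 1) (isCompact_closedBall _ _) ⟨0, by simp⟩
  have key : ∀ δ : ℝ, 0 < δ → δ ≤ 1 / 2 → 1 / 16 ≤ (C : ℝ) ^ 2 * 8 ^ α * δ ^ (3 * α - 1) := by
    intro δ h0 h1
    have hsupp : ∀ ε : ℝ, ε = 1 ∨ ε = -1 →
        (unif (cube d)).map (Tm i j ε δ) (Metric.closedBall 0 1) = 1 := by
      intro ε hε
      rw [Measure.map_apply (measurable_Tm _ _ _ _) measurableSet_closedBall]
      have : Tm i j ε δ ⁻¹' (Metric.closedBall 0 1) = univ := by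
        ext x
        simpa using norm_Tm_le i j hε h0.le h1 x
      rw [this, measure_univ]
    have a1 := hC _ _ (Measure.isProbabilityMeasure_map (measurable_Tm i j 1 δ).aemeasurable)
      (Measure.isProbabilityMeasure_map (measurable_Tm i j (-1) δ).aemeasurable)
      (hsupp 1 (Or.inl rfl)) (hsupp (-1) (Or.inr rfl)) _ _
      (Tm_optimal hij (Or.inl rfl) h0.le) (Tm_optimal hij (Or.inr rfl) h0.le)
    have a2 := (le_eLpNorm_Tm hij h0 h1).trans a1
    have a3 : W2 ((unif (cube d)).map (Tm i j 1 δ)) ((unif (cube d)).map (Tm i j (-1) δ)) ^ α ≤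
        (ENNReal.ofReal (8 * δ ^ 3) ^ (1 / 2 : ℝ)) ^ α :=
      ENNReal.rpow_le_rpow (W2_Tm_le hij h0.le h1) (by linarith)
    have a4 := a2.trans (mul_le_mul_right a3 C)
    rw [ENNReal.ofReal_rpow_of_nonneg (by positivity) (by norm_num),
      ENNReal.ofReal_rpow_of_nonneg (by positivity) (by norm_num),
      ENNReal.ofReal_rpow_of_nonneg (by positivity) (by linarith), ← ENNReal.ofReal_coe_nnreal,
      ← ENNReal.ofReal_mul C.coe_nonneg, ENNReal.ofReal_le_ofReal_iff (by positivity)] at a4
    have a5 := pow_le_pow_left₀ (by positivity) a4 2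
    have e1 : ((δ / 16) ^ (1 / 2 : ℝ)) ^ 2 = δ / 16 := by
      rw [← Real.sqrt_eq_rpow, Real.sq_sqrt (by positivity)]
    have e2 : (((8 * δ ^ 3) ^ (1 / 2 : ℝ)) ^ α) ^ 2 = 8 ^ α * δ ^ (3 * α - 1) * δ := by
      rw [← Real.rpow_mul (by positivity), ← Real.rpow_natCast, ← Real.rpow_mul (by positivity),
        show 1 / 2 * α * ((2 : ℕ) : ℝ) = α by push_cast; ring,
        Real.mul_rpow (by norm_num) (by positivity), ← Real.rpow_natCast, ← Real.rpow_mul h0.le,
        mul_assoc, ← Real.rpow_add_one h0.ne']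
      congr 2
      push_cast
      ring
    rw [e1, mul_pow, e2] at a5
    have : δ * (1 / 16) ≤ δ * ((C : ℝ) ^ 2 * 8 ^ α * δ ^ (3 * α - 1)) := by linarith
    exact le_of_mul_le_mul_left this h0
  have hlim : Tendsto (fun δ : ℝ => (C : ℝ) ^ 2 * 8 ^ α * δ ^ (3 * α - 1)) (𝓝[>] 0) (𝓝 0) := by
    have h1 : Tendsto (fun δ : ℝ => δ ^ (3 * α - 1)) (𝓝 0) (𝓝 0) := by
      have := (Real.continuousAt_rpow_const 0 (3 * α - 1) (Or.inr (by linarith))).tendsto
      rwa [Real.zero_rpow (by linarith)] at this
    have := (h1.const_mul ((C : ℝ) ^ 2 * 8 ^ α)).mono_left (nhdsWithin_le_nhds (s := Ioi 0))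
    simpa using this
  have hev : ∀ᶠ δ in 𝓝[>] (0:ℝ), 1 / 16 ≤ (C : ℝ) ^ 2 * 8 ^ α * δ ^ (3 * α - 1) := by
    filter_upwards [self_mem_nhdsWithin,
      mem_nhdsWithin_of_mem_nhds (ge_mem_nhds (show (0:ℝ) < 1 / 2 by norm_num))] with δ h0 h1
    exact key δ h0 h1
  have := ge_of_tendsto hlim hev
  norm_num at this

end Vale.Agent.P074
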