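import Vale.Agent.P074.Step

open MeasureTheory Set Filter Topology
open scoped ENNReal NNReal RealInnerProductSpace

namespace Vale.Agent.P074

variable {d : ℕ}

lemma telescope {A B a b : ℝ → ℝ} {c M : ℝ}
    (hA : ∀ t ∈ Icc (0:ℝ) 1, ∀ s ∈ Icc (0:ℝ) 1, A t + (s - t) * a t ≤ A s)
    (hB : ∀ t ∈ Icc (0:ℝ) 1, ∀ s ∈ Icc (0:ℝ) 1, B t + (s - t) * b t ≤ B s)
    (hab : ∀ t ∈ Icc (0:ℝ) 1, a t - b t ≤ c) (hb : ∀ t ∈ Icc (0:ℝ) 1, |b t| ≤ M) :
    A 1 - A 0 - (B 1 - B 0) ≤ c := by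
  have key : ∀ N : ℕ, 0 < N → A 1 - A 0 - (B 1 - B 0) ≤ c + 2 * M * (1 / (N : ℝ)) := by
    intro N hN
    have hN' : (0:ℝ) < N := by exact_mod_cast hN
    set Δ : ℝ := 1 / N with hΔ
    have hΔ0 : 0 < Δ := by positivity
    have hmem : ∀ k : ℕ, k ≤ N → (k : ℝ) * Δ ∈ Icc (0:ℝ) 1 := by
      intro k hk
      have : (k : ℝ) ≤ N := by exact_mod_cast hk
      refine ⟨by positivity, ?_⟩
      rw [hΔ, mul_one_div, div_le_one hN']
      exact this
    have ind : ∀ k : ℕ, k ≤ N → A (k * Δ) - A 0 - (B (k * Δ) - B 0) ≤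
        k * Δ * c + Δ * (b (k * Δ) - b 0) := by
      intro k
      induction k with
      | zero => intro _; simp
      | succ k ih =>
        intro hk
        have h0 := ih (by omega)
        have m1 := hmem k (by omega)
        have m2 := hmem (k + 1) hk
        have h1 := hA _ m2 _ m1
        have h2 := hB _ m1 _ m2
        have h3 := mul_le_mul_of_nonneg_left (hab _ m2) hΔ0.le
        push_cast at *
        nlinarith
    have h1 := ind N le_rfl
    have h2 : (N : ℝ) * Δ = 1 := by rw [hΔ]; field_simp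
    rw [h2] at h1
    have h3 := abs_le.1 (hb 1 ⟨zero_le_one, le_rfl⟩)
    have h4 := abs_le.1 (hb 0 ⟨le_rfl, zero_le_one⟩)
    nlinarith
  have hlim : Tendsto (fun N : ℕ => c + 2 * M * (1 / (N : ℝ))) atTop (𝓝 (c + 2 * M * 0)) :=
    (tendsto_one_div_atTop_nhds_zero_nat.const_mul _).const_add _
  rw [mul_zero, add_zero] at hlim
  exact ge_of_tendsto hlim ((eventually_gt_atTop 0).mono key)

theorem path_discrete {Ω : Type} [MeasurableSpace Ω] {π : Measure Ω} [IsProbabilityMeasure π]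
    {K Y : Set (V d)} (hK : IsCompact K) (hKc : Convex ℝ K) (hKne : K.Nonempty)
    [IsProbabilityMeasure (unif K)] (hY : IsCompact Y) (hYc : Convex ℝ Y) (hne : Y.Nonempty)
    {R : ℝ≥0} (hR : ∀ x ∈ K, ‖x‖ ≤ R) {f : V d → ℝ} (hf : Pert K f)
    {y0 y1 : Ω → V d} (h0 : Measurable y0) (h1 : Measurable y1) {S : Finset (V d)}
    (hS0 : ∀ ω, y0 ω ∈ S) (hS1 : ∀ ω, y1 ω ∈ S) (hSY : ∀ z ∈ S, z ∈ Y)
    {lam : ℝ} (hlam : 0 < lam) :
    Vl Y (dens K f) (π.map y1) - Vl Y (dens K f) (π.map y0) -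
      (Vl Y (unif K) (π.map y1) - Vl Y (unif K) (π.map y0)) ≤
      lam * (18 * R ^ 2 * ∫ x, f x ^ 2 ∂(unif K)) + (∫ ω, ‖y1 ω - y0 ω‖ ^ 2 ∂π) / (2 * lam) := by
  classical
  obtain ⟨L, -, hL⟩ := exists_norm_bound hY
  set y : ℝ → Ω → V d := fun t ω => y0 ω + t • (y1 ω - y0 ω) with hy
  have hym : ∀ t, Measurable (y t) := fun t => by simp only [hy]; fun_prop
  have hyY : ∀ t ∈ Icc (0:ℝ) 1, ∀ ω, y t ω ∈ Y := fun t ht ω =>
    hYc.add_smul_sub_mem (hSY _ (hS0 ω)) (hSY _ (hS1 ω)) ht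
  have hv : ∀ ω, ‖y1 ω - y0 ω‖ ≤ L + L := fun ω =>
    (norm_sub_le _ _).trans (add_le_add (hL _ (hSY _ (hS1 ω))) (hL _ (hSY _ (hS0 ω))))
  have hstep : ∀ t : ℝ, ∃ a b : ℝ, t ∈ Icc (0:ℝ) 1 →
      ((∀ s ∈ Icc (0:ℝ) 1,
        Vl Y (dens K f) (π.map (y t)) + (s - t) * a ≤ Vl Y (dens K f) (π.map (y s)) ∧
        Vl Y (unif K) (π.map (y t)) + (s - t) * b ≤ Vl Y (unif K) (π.map (y s))) ∧
      a - b ≤ lam * (18 * R ^ 2 * ∫ x, f x ^ 2 ∂(unif K)) +
        (∫ ω, ‖y1 ω - y0 ω‖ ^ 2 ∂π) / (2 * lam) ∧ |b| ≤ R * (L + L)) := by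
    intro t
    by_cases ht : t ∈ Icc (0:ℝ) 1
    swap
    · exact ⟨0, 0, fun h => absurd h ht⟩
    obtain ⟨a, b, k1, k2, k3⟩ := step_ineq (π := π) hK hKc hKne hY hne hR hf (hym t)
      (v := fun ω => y1 ω - y0 ω) (by fun_prop)
      (S := (S ×ˢ S).image fun p => p.1 + t • (p.2 - p.1))
      (Eventually.of_forall fun ω => Finset.mem_image.2
        ⟨(y0 ω, y1 ω), Finset.mem_product.2 ⟨hS0 ω, hS1 ω⟩, rfl⟩)
      (Eventually.of_forall (hyY t ht)) (Eventually.of_forall hv) hlam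
    refine ⟨a, b, fun _ => ⟨fun s hs => ?_, k2, k3⟩⟩
    have e : (fun ω => y t ω + (s - t) • (y1 ω - y0 ω)) = y s := by
      ext1 ω
      simp only [hy]
      rw [add_assoc, ← add_smul]
      congr 2
      ring
    have := k1 (s - t) (Eventually.of_forall fun ω => by
      have := hyY s hs ω
      rw [← e] at this
      exact this)
    rw [e] at this
    exact this
  choose a b hab using hstep
  have := telescope (A := fun t => Vl Y (dens K f) (π.map (y t)))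
    (B := fun t => Vl Y (unif K) (π.map (y t))) (a := a) (b := b)
    (fun t ht s hs => ((hab t ht).1 s hs).1) (fun t ht s hs => ((hab t ht).1 s hs).2)
    (fun t ht => (hab t ht).2.1) (fun t ht => (hab t ht).2.2)
  have e0 : y 0 = y0 := by ext1 ω; simp [hy]
  have e1 : y 1 = y1 := by ext1 ω; simp [hy]
  simp only [e0, e1] at this
  exact this

lemma Vl_le_add {Ω : Type} [MeasurableSpace Ω] {π : Measure Ω} [IsProbabilityMeasure π]
    {K Y : Set (V d)} (hK : IsCompact K) (hKne : K.Nonempty) (hY : IsCompact Y)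
    (hne : Y.Nonempty) {R : ℝ≥0} (hR : ∀ x ∈ K, ‖x‖ ≤ R) {σ : Measure (V d)}
    [IsProbabilityMeasure σ] (hac : σ ≪ volume) (hσ : ∀ᵐ x ∂σ, x ∈ K)
    {y y' : Ω → V d} (hy : Measurable y) (hy' : Measurable y') (hY0 : ∀ᵐ ω ∂π, y ω ∈ Y)
    (hY1 : ∀ᵐ ω ∂π, y' ω ∈ Y) {η : ℝ} (hη : ∀ᵐ ω ∂π, dist (y' ω) (y ω) ≤ η) :
    Vl Y σ (π.map y') ≤ Vl Y σ (π.map y) + R * η := by
  have : IsProbabilityMeasure (π.map y) := Measure.isProbabilityMeasure_map hy.aemeasurable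
  have : IsProbabilityMeasure (π.map y') := Measure.isProbabilityMeasure_map hy'.aemeasurable
  obtain ⟨ψ, T, hl, h⟩ := brenier hK hKne hY hne hR hac hσ
    ((ae_map_iff hy.aemeasurable hY.measurableSet).2 hY0)
  obtain ⟨ψ', T', -, h'⟩ := brenier hK hKne hY hne hR hac hσ
    ((ae_map_iff hy'.aemeasurable hY.measurableSet).2 hY1)
  refine (h'.Vl_le hK hY hne hσ h.cont).trans ?_
  rw [h.Vl_eq hK hY hne hσ, J, J, integral_map hy.aemeasurable h.cont.aestronglyMeasurable,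
    integral_map hy'.aemeasurable h.cont.aestronglyMeasurable]
  have i1 := integrable_comp_map hY hy hY0 h.cont
  have i2 := integrable_comp_map hY hy' hY1 h.cont
  have h3 : ∫ ω, ψ (y' ω) ∂π ≤ ∫ ω, (ψ (y ω) + R * η) ∂π := by
    refine integral_mono_ae i2 (i1.add (integrable_const _)) ?_
    filter_upwards [hη] with ω hω
    have h1 := hl.dist_le_mul (y' ω) (y ω)
    have h2 : (R : ℝ) * dist (y' ω) (y ω) ≤ R * η := mul_le_mul_of_nonneg_left hω R.2
    rw [Real.dist_eq] at h1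
    linarith [le_abs_self (ψ (y' ω) - ψ (y ω))]
  rw [integral_add i1 (integrable_const _)] at h3
  simp only [integral_const, probReal_univ, smul_eq_mul, one_mul] at h3
  linarith

lemma exists_discretization {Y : Set (V d)} (hY : IsCompact Y) (hne : Y.Nonempty) {η : ℝ}
    (hη : 0 < η) : ∃ (p : V d → V d) (S : Finset (V d)), Measurable p ∧ (∀ y, p y ∈ S) ∧
      (∀ z ∈ S, z ∈ Y) ∧ ∀ y ∈ Y, dist (p y) y ≤ η := by
  classical
  obtain ⟨y0, hy0⟩ := hne
  have aux : ∀ t : Finset (V d), ∃ p : V d → V d, Measurable p ∧ (∀ y, p y ∈ insert y0 t) ∧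
      ∀ c ∈ t, ∀ y ∈ Metric.ball c η, dist (p y) y ≤ η := by
    intro t
    induction t using Finset.induction_on with
    | empty => exact ⟨fun _ => y0, measurable_const, by simp, by simp⟩
    | insert c t _ ih =>
      obtain ⟨p, hp1, hp2, hp3⟩ := ih
      refine ⟨fun y => if y ∈ Metric.ball c η then c else p y,
        Measurable.ite measurableSet_ball measurable_const hp1, fun y => ?_, ?_⟩
      · have := hp2 y
        beta_reduce
        split_ifs
        · simp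
        · rw [Finset.mem_insert] at this
          rcases this with h | h <;> simp [h]
      · intro c' hc' y hy
        beta_reduce
        split_ifs with h
        · rw [dist_comm]
          exact (Metric.mem_ball.1 h).le
        · rcases Finset.mem_insert.1 hc' with rfl | h'
          · exact absurd hy h
          · exact hp3 c' h' y hy
  obtain ⟨t, htY, htf, hcov⟩ := hY.finite_cover_balls hη
  obtain ⟨p, hp1, hp2, hp3⟩ := aux htf.toFinset
  refine ⟨p, insert y0 htf.toFinset, hp1, hp2, fun z hz => ?_, fun y hy => ?_⟩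
  · rcases Finset.mem_insert.1 hz with rfl | h
    · exact hy0
    · exact htY (htf.mem_toFinset.1 h)
  · obtain ⟨c, hc, hyc⟩ := mem_iUnion₂.1 (hcov hy)
    exact hp3 c (htf.mem_toFinset.2 hc) y hyc

theorem path_ineq {π : Measure (V d × V d)} [IsProbabilityMeasure π]
    {K Y : Set (V d)} (hK : IsCompact K) (hKc : Convex ℝ K) (hKne : K.Nonempty)
    [IsProbabilityMeasure (unif K)] (hY : IsCompact Y) (hYc : Convex ℝ Y) (hne : Y.Nonempty)
    {R : ℝ≥0} (hR : ∀ x ∈ K, ‖x‖ ≤ R) {f : V d → ℝ} (hf : Pert K f)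
    (h0 : ∀ᵐ ω ∂π, ω.1 ∈ Y) (h1 : ∀ᵐ ω ∂π, ω.2 ∈ Y) {lam : ℝ} (hlam : 0 < lam) :
    Vl Y (dens K f) (π.map Prod.snd) - Vl Y (dens K f) (π.map Prod.fst) -
      (Vl Y (unif K) (π.map Prod.snd) - Vl Y (unif K) (π.map Prod.fst)) ≤
      lam * (18 * R ^ 2 * ∫ x, f x ^ 2 ∂(unif K)) + (∫ ω, ‖ω.1 - ω.2‖ ^ 2 ∂π) / lam := by
  have := hf.prob
  have hρK := unif_ae_mem hK
  have hσK : ∀ᵐ x ∂(dens K f), x ∈ K := (dens_ac K f).ae_le hρK
  have hσac := (dens_ac K f).trans (unif_ac K)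
  obtain ⟨L, -, hL⟩ := exists_norm_bound hY
  have iW : Integrable (fun ω : V d × V d => ‖ω.1 - ω.2‖ ^ 2) π := by
    refine Integrable.of_bound (by fun_prop) ((L + L) ^ 2) ?_
    filter_upwards [h0, h1] with ω a1 a2
    rw [norm_pow, norm_norm]
    gcongr
    exact (norm_sub_le _ _).trans (add_le_add (hL _ a1) (hL _ a2))
  have key : ∀ η : ℝ, 0 < η → Vl Y (dens K f) (π.map Prod.snd) - Vl Y (dens K f) (π.map Prod.fst) -
      (Vl Y (unif K) (π.map Prod.snd) - Vl Y (unif K) (π.map Prod.fst)) ≤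
      lam * (18 * R ^ 2 * ∫ x, f x ^ 2 ∂(unif K)) + (∫ ω, ‖ω.1 - ω.2‖ ^ 2 ∂π) / lam +
        (4 * R * η + 4 * η ^ 2 / lam) := by
    intro η hη
    obtain ⟨p, S, hp, hpS, hSY, hpη⟩ := exists_discretization hY hne hη
    have m0 : Measurable fun ω : V d × V d => p ω.1 := by fun_prop
    have m1 : Measurable fun ω : V d × V d => p ω.2 := by fun_prop
    have k := path_discrete (π := π) hK hKc hKne hY hYc hne hR hf m0 m1 (fun ω => hpS _)
      (fun ω => hpS _) hSY hlam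
    have p0 : ∀ᵐ ω ∂π, p ω.1 ∈ Y := Eventually.of_forall fun ω => hSY _ (hpS _)
    have p1 : ∀ᵐ ω ∂π, p ω.2 ∈ Y := Eventually.of_forall fun ω => hSY _ (hpS _)
    have a1 := Vl_le_add hK hKne hY hne hR hσac hσK m1 measurable_snd p1 h1 (η := η)
      (h1.mono fun ω h => by rw [dist_comm]; exact hpη _ h)
    have a2 := Vl_le_add hK hKne hY hne hR hσac hσK measurable_fst m0 h0 p0 (η := η)
      (h0.mono fun ω h => hpη _ h)
    have a3 := Vl_le_add hK hKne hY hne hR (unif_ac K) hρK measurable_snd m1 h1 p1 (η := η)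
      (h1.mono fun ω h => hpη _ h)
    have a4 := Vl_le_add hK hKne hY hne hR (unif_ac K) hρK m0 measurable_fst p0 h0 (η := η)
      (h0.mono fun ω h => by rw [dist_comm]; exact hpη _ h)
    have a5 : ∫ ω, ‖p ω.2 - p ω.1‖ ^ 2 ∂π ≤ ∫ ω, (2 * ‖ω.1 - ω.2‖ ^ 2 + 8 * η ^ 2) ∂π := by
      refine integral_mono_of_nonneg (Eventually.of_forall fun ω => by positivity)
        ((iW.const_mul 2).add (integrable_const _)) ?_
      filter_upwards [h0, h1] with ω b0 b1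
      have c0 := hpη _ b0
      have c1 := hpη _ b1
      have c2 := dist_triangle4 (p ω.2) ω.2 ω.1 (p ω.1)
      rw [dist_comm ω.1 (p ω.1), dist_comm ω.2 ω.1, dist_eq_norm (p ω.2) (p ω.1),
        dist_eq_norm ω.1 ω.2] at c2
      have c3 : ‖p ω.2 - p ω.1‖ ≤ ‖ω.1 - ω.2‖ + 2 * η := by linarith
      have c4 := pow_le_pow_left₀ (norm_nonneg _) c3 2
      nlinarith [sq_nonneg (‖ω.1 - ω.2‖ - 2 * η)]
    rw [integral_add (iW.const_mul 2) (integrable_const _), integral_const_mul] at a5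
    simp only [integral_const, probReal_univ, smul_eq_mul, one_mul] at a5
    have a6 : (∫ ω, ‖p ω.2 - p ω.1‖ ^ 2 ∂π) / (2 * lam) ≤
        (∫ ω, ‖ω.1 - ω.2‖ ^ 2 ∂π) / lam + 4 * η ^ 2 / lam := by
      rw [div_le_iff₀ (by positivity)]
      refine a5.trans (le_of_eq ?_)
      field_simp
      ring
    linarith
  have hlim : Tendsto (fun η : ℝ => lam * (18 * R ^ 2 * ∫ x, f x ^ 2 ∂(unif K)) +
      (∫ ω, ‖ω.1 - ω.2‖ ^ 2 ∂π) / lam + (4 * R * η + 4 * η ^ 2 / lam)) (𝓝[>] 0)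
      (𝓝 (lam * (18 * R ^ 2 * ∫ x, f x ^ 2 ∂(unif K)) +
      (∫ ω, ‖ω.1 - ω.2‖ ^ 2 ∂π) / lam + (4 * R * 0 + 4 * 0 ^ 2 / lam))) :=
    (Continuous.tendsto (by fun_prop) 0).mono_left nhdsWithin_le_nhds
  simp only [mul_zero, ne_eq, OfNat.ofNat_ne_zero, not_false_eq_true, zero_pow, zero_div,
    add_zero] at hlim
  exact ge_of_tendsto hlim (eventually_mem_nhdsWithin.mono key)

end Vale.Agent.P074
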