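import Vale.Agent.P074.Path

open MeasureTheory Set Filter Topology
open scoped ENNReal NNReal RealInnerProductSpace

namespace Vale.Agent.P074

variable {d : ℕ}

/-- Kantorovich potentials are Lipschitz from `W2` to `L2` modulo constants. -/
theorem potential_stability {π : Measure (V d × V d)} [IsProbabilityMeasure π]
    {K Y : Set (V d)} (hK : IsCompact K) (hKc : Convex ℝ K) (hKne : K.Nonempty)
    [IsProbabilityMeasure (unif K)] (hY : IsCompact Y) (hYc : Convex ℝ Y) (hne : Y.Nonempty)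
    {R L : ℝ≥0} (hR0 : 0 < R) (hR : ∀ x ∈ K, ‖x‖ ≤ R) (hL : ∀ y ∈ Y, ‖y‖ ≤ L)
    (h0 : ∀ᵐ ω ∂π, ω.1 ∈ Y) (h1 : ∀ᵐ ω ∂π, ω.2 ∈ Y) {ψ0 ψ1 : V d → ℝ} {T0 T1 : V d → V d}
    (p0 : OptPair Y (unif K) (π.map Prod.fst) ψ0 T0)
    (p1 : OptPair Y (unif K) (π.map Prod.snd) ψ1 T1) :
    ∃ c : ℝ, ∫ x, (cj Y ψ1 x - cj Y ψ0 x - c) ^ 2 ∂(unif K) ≤
      144 * R ^ 2 * ∫ ω, ‖ω.1 - ω.2‖ ^ 2 ∂π := by
  have hρK := unif_ae_mem hK
  have c0 := continuous_cj hY hne p0.cont
  have c1 := continuous_cj hY hne p1.cont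
  have hR0' : (0:ℝ) < R := hR0
  have hL0 : (0:ℝ) ≤ L := L.2
  set u : V d → ℝ := fun x => cj Y ψ1 x - cj Y ψ0 x with hu
  have cu : Continuous u := c1.sub c0
  have iu := integrable_of_continuous hK hρK cu
  set c := ∫ x, u x ∂(unif K) with hc
  refine ⟨c, ?_⟩
  set C1 : ℝ := L * R + R ^ 2 + 4 * (L / 2 + R) ^ 2 with hC1
  have hC1pos : 0 < C1 := by positivity
  set s : ℝ := 1 / (32 * C1) with hs
  have hs0 : 0 < s := by positivity
  have hub : ∀ x ∈ K, |u x - c| ≤ 4 * L * R := by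
    intro x hx
    have e : u x - c = ∫ x', (u x - u x') ∂(unif K) := by
      rw [integral_sub (integrable_const _) iu]
      simp [hc]
    rw [e, ← Real.norm_eq_abs]
    have := norm_integral_le_of_norm_le_const (μ := unif K) (f := fun x' => u x - u x')
      (C := 4 * L * R) (by
        filter_upwards [hρK] with x' hx'
        have a1 := abs_le.1 (abs_cj_sub_le hY hne p0.cont hL x x')
        have a2 := abs_le.1 (abs_cj_sub_le hY hne p1.cont hL x x')
        have a3 : ‖x - x'‖ ≤ R + R := (norm_sub_le _ _).trans (add_le_add (hR x hx) (hR x' hx'))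
        have a4 := mul_le_mul_of_nonneg_left a3 hL0
        rw [Real.norm_eq_abs, abs_le]
        simp only [hu]
        constructor <;> linarith [a1.1, a1.2, a2.1, a2.2])
    simpa using this
  set f : V d → ℝ := K.indicator fun x => s * (u x - c) with hf
  have hfm : Measurable f := Measurable.indicator (by fun_prop) hK.measurableSet
  have hfae : f =ᵐ[unif K] fun x => s * (u x - c) := hρK.mono fun x hx => indicator_of_mem hx _
  have hfb : ∀ x, |f x| ≤ 1 / 4 := by
    intro x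
    by_cases hx : x ∈ K
    · rw [hf, indicator_of_mem hx, abs_mul, abs_of_pos hs0]
      have a1 := mul_le_mul_of_nonneg_left (hub x hx) hs0.le
      refine a1.trans ?_
      rw [hs, one_div, inv_mul_le_iff₀ (by positivity), hC1]
      nlinarith [sq_nonneg (R:ℝ), sq_nonneg (L / 2 + R : ℝ), mul_nonneg hL0 hR0'.le]
    · rw [hf, indicator_of_notMem hx]
      norm_num
  have hf0 : ∫ x, f x ∂(unif K) = 0 := by
    rw [integral_congr_ae hfae, integral_const_mul, integral_sub iu (integrable_const _)]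
    simp [hc]
  have pf : Pert K f := ⟨hfm, fun x => (hfb x).trans (by norm_num), hf0⟩
  have pf2 : Pert K fun x => 2 * f x := ⟨by fun_prop, fun x => by
    rw [abs_mul, abs_two]; linarith [hfb x], by rw [integral_const_mul, hf0, mul_zero]⟩
  have := pf.prob
  have hσK : ∀ᵐ x ∂(dens K f), x ∈ K := (dens_ac K f).ae_le hρK
  have : IsProbabilityMeasure (π.map Prod.fst) :=
    Measure.isProbabilityMeasure_map measurable_fst.aemeasurable
  have : IsProbabilityMeasure (π.map Prod.snd) :=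
    Measure.isProbabilityMeasure_map measurable_snd.aemeasurable
  have m0 : ∀ᵐ y ∂(π.map Prod.fst), y ∈ Y :=
    (ae_map_iff measurable_fst.aemeasurable hY.measurableSet).2 h0
  have m1 : ∀ᵐ y ∂(π.map Prod.snd), y ∈ Y :=
    (ae_map_iff measurable_snd.aemeasurable hY.measurableSet).2 h1
  obtain ⟨ψ', T', -, p'⟩ := brenier hK hKne hY hne hR ((dens_ac K f).trans (unif_ac K)) hσK m0
  have a1 := le_Vl fun ψ hψ => J_dens_ge hK hKc hY hne hR0'.le hL0 hR hL pf pf2 m1 p1 (ψ := ψ) hψ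
  have a2 := p'.Vl_le hK hY hne hσK p0.cont
  rw [pf.J_dens hK hY hne _ p0.cont] at a2
  have a3 := path_ineq hK hKc hKne hY hYc hne hR pf h0 h1 (lam := 1 / (72 * R ^ 2 * s))
    (by positivity)
  rw [p0.Vl_eq hK hY hne hρK, p1.Vl_eq hK hY hne hρK] at a3
  set U := ∫ x, (u x - c) ^ 2 ∂(unif K) with hU
  set W := ∫ ω, ‖ω.1 - ω.2‖ ^ 2 ∂π with hW
  have b1 : ∫ x, f x ^ 2 ∂(unif K) = s ^ 2 * U := by
    rw [hU, ← integral_const_mul]
    refine integral_congr_ae ?_
    filter_upwards [hfae] with x hx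
    rw [hx]; ring
  have b2 : ∫ x, cj Y ψ1 x * f x ∂(unif K) - ∫ x, cj Y ψ0 x * f x ∂(unif K) = s * U := by
    rw [← integral_sub (pf.integrable_mul hK c1) (pf.integrable_mul hK c0)]
    have e : ∫ x, (cj Y ψ1 x * f x - cj Y ψ0 x * f x) ∂(unif K) =
        ∫ x, (s * (u x - c) ^ 2 + c * f x) ∂(unif K) := by
      refine integral_congr_ae ?_
      filter_upwards [hfae] with x hx
      rw [hx]; simp only [hu]; ring
    rw [e, integral_add (integrable_of_continuous hK hρK (by fun_prop))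
      (pf.integrable.const_mul c), integral_const_mul, integral_const_mul, hf0]
    simp [hU]
  rw [b1] at a1 a3
  have b3 : 8 * C1 * (s ^ 2 * U) = s * U / 4 := by
    rw [hs]; field_simp; ring
  have b4 : 1 / (72 * R ^ 2 * s) * (18 * R ^ 2 * (s ^ 2 * U)) = s * U / 4 := by
    field_simp; ring
  have b5 : W / (1 / (72 * R ^ 2 * s)) = s * (72 * R ^ 2 * W) := by
    field_simp
  rw [b4, b5] at a3
  rw [b3] at a1
  have b6 : s * U ≤ s * (144 * R ^ 2 * W) := by linarith
  exact le_of_mul_le_mul_left b6 hs0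

end Vale.Agent.P074
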