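import Vale.Agent.P074.Duality

open MeasureTheory Set Filter Topology
open scoped ENNReal NNReal RealInnerProductSpace

namespace Vale.Agent.P074

variable {d : ℕ}

lemma isCompact_shift {K : Set (V d)} (hK : IsCompact K) (a : V d) :
    IsCompact ((fun x => x + a) ⁻¹' K) :=
  (Homeomorph.addRight a).isCompact_preimage.2 hK

lemma volume_sdiff_shift (hd : 1 ≤ d) {K : Set (V d)} (hK : IsCompact K) (hKc : Convex ℝ K)
    {x0 : V d} {r : ℝ} (hr : 0 < r) (hball : Metric.closedBall x0 r ⊆ K) {a : V d} {h : ℝ}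
    (hh : 0 < h) (ha : ‖a‖ ≤ h) :
    volume.real (K \ (fun x => x + a) ⁻¹' K) ≤ d * (h / r) * volume.real K := by
  have hfin : volume K ≠ ∞ := hK.measure_lt_top.ne
  have hd' : (1:ℝ) ≤ d := by exact_mod_cast hd
  set l := h / r with hl
  have hl0 : 0 < l := by positivity
  by_cases hl1 : 1 ≤ l
  · have h1 : volume.real (K \ (fun x => x + a) ⁻¹' K) ≤ volume.real K :=
      measureReal_mono sdiff_subset hfin
    have h2 : 1 ≤ d * l := by nlinarith
    nlinarith [measureReal_nonneg (μ := volume) (s := K)]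
  push Not at hl1
  set H := AffineMap.homothety x0 (1 - l) '' K with hH
  have hHc : IsCompact H := hK.image (AffineMap.homothety_continuous _ _)
  have hx0 : x0 ∈ K := hball (Metric.mem_closedBall_self hr.le)
  have hsub : ∀ b : V d, ‖b‖ ≤ h → ∀ z ∈ H, z + b ∈ K := by
    rintro b hb _ ⟨x, hx, rfl⟩
    have h1 : x0 + l⁻¹ • b ∈ K := by
      apply hball
      rw [Metric.mem_closedBall, dist_self_add_left, norm_smul, Real.norm_eq_abs,
        abs_of_pos (by positivity), inv_mul_le_iff₀ hl0, hl, div_mul_cancel₀ _ hr.ne']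
      exact hb
    have h2 := hKc hx h1 (by linarith : 0 ≤ 1 - l) hl0.le (by ring)
    convert h2 using 1
    rw [AffineMap.homothety_apply, smul_add, smul_smul, mul_inv_cancel₀ hl0.ne', one_smul]
    simp only [vsub_eq_sub, vadd_eq_add]
    module
  have hHK : H ⊆ K := fun z hz => by simpa using hsub 0 (by simpa using hh.le) z hz
  have h1 : volume.real (K \ (fun x => x + a) ⁻¹' K) ≤ volume.real (K \ H) :=
    measureReal_mono (sdiff_subset_sdiff_right fun z hz => hsub a ha z hz)
      (measure_ne_top_of_subset sdiff_subset hfin)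
  have h2 : volume.real H = (1 - l) ^ d * volume.real K := by
    rw [measureReal_def, hH, Measure.addHaar_image_homothety, ENNReal.toReal_mul,
      ENNReal.toReal_ofReal (abs_nonneg _), abs_of_nonneg (pow_nonneg (by linarith) _)]
    simp [measureReal_def]
  rw [measureReal_sdiff hHK hHc.measurableSet hfin, h2] at h1
  have h3 := one_add_mul_le_pow (a := -l) (by linarith) d
  have h4 : 1 + -l = 1 - l := by ring
  rw [h4] at h3
  nlinarith [measureReal_nonneg (μ := volume) (s := K)]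

lemma setIntegral_shift (K : Set (V d)) (a : V d) (g : V d → ℝ) :
    ∫ x in (fun x => x + a) ⁻¹' K, g (x + a) = ∫ x in K, g x :=
  (measurePreserving_add_right volume a).setIntegral_preimage_emb
    (Homeomorph.addRight a).measurableEmbedding g K

lemma shift_ineq_one {K : Set (V d)} (hK : IsCompact K) (a : V d) {D : V d → ℝ}
    (hD : Continuous D) {M : ℝ} (hM : ∀ x, |D x| ≤ M) :
    ∫ x in K, (D x - D (x - a)) ≤ 2 * M * volume.real (K \ (fun x => x + a) ⁻¹' K) := by
  set K' := (fun x => x + a) ⁻¹' K with hK'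
  have hK'c : IsCompact K' := isCompact_shift hK a
  have c1 : Continuous fun x => D x + M := by fun_prop
  have c2 : Continuous fun x => D (x - a) + M := by fun_prop
  have i1 := c1.continuousOn.integrableOn_compact (μ := volume) hK
  have i2 := c2.continuousOn.integrableOn_compact (μ := volume) hK
  have i3 := c1.continuousOn.integrableOn_compact (μ := volume) hK'c
  have e1 : ∫ x in K, (D x - D (x - a)) = (∫ x in K, (D x + M)) - ∫ x in K, (D (x - a) + M) := by
    rw [← integral_sub i1 i2]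
    congr 1; ext x; ring
  have e2 : ∫ x in K, (D (x - a) + M) = ∫ x in K', (D x + M) := by
    rw [← setIntegral_shift K a]
    simp only [add_sub_cancel_right]
    rfl
  have e3 := integral_inter_add_sdiff hK'c.measurableSet i1
  have e4 : ∫ x in K ∩ K', (D x + M) ≤ ∫ x in K', (D x + M) :=
    setIntegral_mono_set i3 (Eventually.of_forall fun x => by
      have := (abs_le.1 (hM x)).1
      simp only [Pi.zero_apply]
      linarith) inter_subset_right.eventuallyLE
  have e5 : ‖∫ x in K \ K', (D x + M)‖ ≤ 2 * M * volume.real (K \ K') :=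
    norm_setIntegral_le_of_norm_le_const_ae
      ((measure_mono sdiff_subset).trans_lt hK.measure_lt_top) (Eventually.of_forall fun x => by
        have := abs_le.1 (hM x)
        rw [Real.norm_eq_abs, abs_le]
        constructor <;> linarith [this.1, this.2])
  have e6 := le_abs_self (∫ x in K \ K', (D x + M))
  rw [Real.norm_eq_abs] at e5
  linarith

lemma shift_ineq_two {K : Set (V d)} (hK : IsCompact K) (a : V d) {u : V d → ℝ}
    (hu : Continuous u) {M : ℝ} (hM : ∀ x, |u (x + a) - u x| ≤ M) :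
    ∫ x in K, (u (x + a) - u x) ^ 2 ≤
      4 * (∫ x in K, u x ^ 2) + M ^ 2 * volume.real (K \ (fun x => x + a) ⁻¹' K) := by
  set K' := (fun x => x + a) ⁻¹' K with hK'
  have hK'c : IsCompact K' := isCompact_shift hK a
  have hKK' : IsCompact (K ∩ K') := hK.inter hK'c
  have c1 : Continuous fun x => (u (x + a) - u x) ^ 2 := by fun_prop
  have c2 : Continuous fun x => u (x + a) ^ 2 := by fun_prop
  have c3 : Continuous fun x => u x ^ 2 := by fun_prop
  have e3 := integral_inter_add_sdiff hK'c.measurableSet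
    (c1.continuousOn.integrableOn_compact (μ := volume) hK)
  have j2 := c2.continuousOn.integrableOn_compact (μ := volume) hKK'
  have j3 := c3.continuousOn.integrableOn_compact (μ := volume) hKK'
  have e4 : ∫ x in K ∩ K', (u (x + a) - u x) ^ 2 ≤
      ∫ x in K ∩ K', (2 * u (x + a) ^ 2 + 2 * u x ^ 2) :=
    integral_mono (c1.continuousOn.integrableOn_compact hKK')
      ((j2.const_mul 2).add (j3.const_mul 2)) fun x => by
        simp only
        nlinarith [sq_nonneg (u (x + a) + u x)]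
  rw [integral_add (j2.const_mul 2) (j3.const_mul 2), integral_const_mul, integral_const_mul] at e4
  have e5 : ∫ x in K ∩ K', u (x + a) ^ 2 ≤ ∫ x in K', u (x + a) ^ 2 :=
    setIntegral_mono_set (c2.continuousOn.integrableOn_compact hK'c)
      (Eventually.of_forall fun x => sq_nonneg _) inter_subset_right.eventuallyLE
  have e6 : ∫ x in K ∩ K', u x ^ 2 ≤ ∫ x in K, u x ^ 2 :=
    setIntegral_mono_set (c3.continuousOn.integrableOn_compact hK)
      (Eventually.of_forall fun x => sq_nonneg _) inter_subset_left.eventuallyLE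
  have e7 := setIntegral_shift K a fun x => u x ^ 2
  have e8 : ‖∫ x in K \ K', (u (x + a) - u x) ^ 2‖ ≤ M ^ 2 * volume.real (K \ K') :=
    norm_setIntegral_le_of_norm_le_const_ae
      ((measure_mono sdiff_subset).trans_lt hK.measure_lt_top) (Eventually.of_forall fun x => by
        rw [norm_pow, Real.norm_eq_abs]
        exact pow_le_pow_left₀ (abs_nonneg _) (hM x) 2)
  have e9 := le_abs_self (∫ x in K \ K', (u (x + a) - u x) ^ 2)
  rw [Real.norm_eq_abs] at e8
  linarith

lemma OptPair.subgradient {Y : Set (V d)} (hY : IsCompact Y) {σ μ : Measure (V d)}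
    {ψ : V d → ℝ} {T : V d → V d} (h : OptPair Y σ μ ψ T) :
    ∀ᵐ x ∂σ, T x ∈ Y ∧ ∀ b, cj Y ψ x + ⟪b, T x⟫ ≤ cj Y ψ (x + b) := by
  filter_upwards [h.sat] with x hx
  refine ⟨hx.1, fun b => ?_⟩
  have := le_cj hY h.cont (x + b) hx.1
  rw [inner_add_left] at this
  linarith [hx.2]

lemma integral_unif (K : Set (V d)) (g : V d → ℝ) :
    ∫ x, g x ∂(unif K) = (volume.real K)⁻¹ * ∫ x in K, g x := by
  rw [unif, integral_smul_measure, ENNReal.toReal_inv, smul_eq_mul, measureReal_def]

lemma rev_pointwise {h t0 t1 p0 q0 p1 q1 M : ℝ} (f0 : h * t0 ≤ p0) (f1 : h * t1 ≤ p1)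
    (f0' : q0 ≤ h * t0) (f1' : q1 ≤ h * t1) (g0 : |p0| ≤ M) (g0' : |q0| ≤ M) (g1 : |p1| ≤ M)
    (g1' : |q1| ≤ M) :
    h ^ 2 * (t0 - t1) ^ 2 ≤ 6 * M * (p0 - q0) + 6 * M * (p1 - q1) + 3 * (p1 - p0) ^ 2 := by
  have hM : 0 ≤ M := (abs_nonneg _).trans g0
  rw [abs_le] at g0 g0' g1 g1'
  have r0 : (p0 - h * t0) ^ 2 ≤ 2 * M * (p0 - q0) := by
    rw [sq]
    exact mul_le_mul (by linarith) (by linarith) (by linarith) (by positivity)
  have r1 : (p1 - h * t1) ^ 2 ≤ 2 * M * (p1 - q1) := by
    rw [sq]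
    exact mul_le_mul (by linarith) (by linarith) (by linarith) (by positivity)
  have : h ^ 2 * (t0 - t1) ^ 2 = ((p1 - h * t1) - (p0 - h * t0) - (p1 - p0)) ^ 2 := by ring
  rw [this]
  generalize p0 - h * t0 = A at *
  generalize p1 - h * t1 = B at *
  generalize p1 - p0 = C at *
  nlinarith [sq_nonneg (A + B), sq_nonneg (B + C), sq_nonneg (A - C)]

lemma rev_final {h L k w I0 I1 I2 U X δ : ℝ} (hh : 0 < h) (hL0 : 0 ≤ L) (hk : 0 < k)
    (k0 : I0 ≤ 2 * (L * h) * w) (k1 : I1 ≤ 2 * (L * h) * w)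
    (k2 : I2 ≤ 4 * U + (2 * (L * h)) ^ 2 * w) (k3 : w ≤ δ * k)
    (k4 : h ^ 2 * X ≤ 6 * (L * h) * (k⁻¹ * I0) + 6 * (L * h) * (k⁻¹ * I1) + 3 * (k⁻¹ * I2)) :
    X ≤ 36 * L ^ 2 * δ + 12 * (k⁻¹ * U) / h ^ 2 := by
  have hw : k⁻¹ * w ≤ δ := by rw [inv_mul_le_iff₀ hk]; linarith
  have hki : 0 ≤ k⁻¹ := by positivity
  have hLh : 0 ≤ L * h := by positivity
  have l0 := mul_le_mul_of_nonneg_left k0 (mul_nonneg hLh hki)
  have l1 := mul_le_mul_of_nonneg_left k1 (mul_nonneg hLh hki)
  have l2 := mul_le_mul_of_nonneg_left k2 hki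
  have l3 := mul_le_mul_of_nonneg_left hw (sq_nonneg (L * h))
  have l4 : h ^ 2 * X ≤ h ^ 2 * (36 * L ^ 2 * δ + 12 * (k⁻¹ * U) / h ^ 2) := by
    have : h ^ 2 * (36 * L ^ 2 * δ + 12 * (k⁻¹ * U) / h ^ 2) =
      36 * ((L * h) ^ 2 * δ) + 12 * (k⁻¹ * U) := by
      field_simp
    rw [this]
    linarith
  exact le_of_mul_le_mul_left l4 (by positivity)

theorem reverse_poincare (hd : 1 ≤ d) {K Y : Set (V d)} (hK : IsCompact K) (hKc : Convex ℝ K)
    {x0 : V d} {r : ℝ} (hr : 0 < r) (hball : Metric.closedBall x0 r ⊆ K)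
    [IsProbabilityMeasure (unif K)] (hY : IsCompact Y) (hne : Y.Nonempty) {L : ℝ} (hL0 : 0 ≤ L)
    (hL : ∀ y ∈ Y, ‖y‖ ≤ L) {μ0 μ1 : Measure (V d)} {ψ0 ψ1 : V d → ℝ} {T0 T1 : V d → V d}
    (p0 : OptPair Y (unif K) μ0 ψ0 T0) (p1 : OptPair Y (unif K) μ1 ψ1 T1) (c : ℝ) {h : ℝ}
    (hh : 0 < h) :
    ∫ x, ‖T0 x - T1 x‖ ^ 2 ∂(unif K) ≤ d * (36 * L ^ 2 * (d * (h / r)) +
      12 * (∫ x, (cj Y ψ1 x - cj Y ψ0 x - c) ^ 2 ∂(unif K)) / h ^ 2) := by
  have hρK := unif_ae_mem hK
  have c0 := continuous_cj hY hne p0.cont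
  have c1 := continuous_cj hY hne p1.cont
  have m0 := p0.meas
  have m1 := p1.meas
  have hk : 0 < volume.real K := by
    refine ENNReal.toReal_pos ?_ hK.measure_lt_top.ne
    exact ((Metric.measure_closedBall_pos volume x0 hr).trans_le (measure_mono hball)).ne'
  have s0 := p0.subgradient hY
  have s1 := p1.subgradient hY
  have hb : ∀ᵐ x ∂(unif K), ‖T0 x - T1 x‖ ≤ L + L := by
    filter_upwards [s0, s1] with x a0 a1
    exact (norm_sub_le _ _).trans (add_le_add (hL _ a0.1) (hL _ a1.1))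
  have icoord : ∀ i, Integrable (fun x => (T0 x - T1 x) i ^ 2) (unif K) := fun i => by
    refine Integrable.of_bound (Measurable.aestronglyMeasurable (by fun_prop)) ((L + L) ^ 2) ?_
    filter_upwards [hb] with x hx
    rw [norm_pow]
    exact pow_le_pow_left₀ (norm_nonneg _) ((PiLp.norm_apply_le _ i).trans hx) 2
  simp only [EuclideanSpace.real_norm_sq_eq]
  rw [integral_finsetSum _ fun i _ => icoord i]
  refine (Finset.sum_le_card_nsmul _ _ (36 * L ^ 2 * (d * (h / r)) +
      12 * (∫ x, (cj Y ψ1 x - cj Y ψ0 x - c) ^ 2 ∂(unif K)) / h ^ 2) fun i _ => ?_).trans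
    (by rw [Finset.card_univ, Fintype.card_fin, nsmul_eq_mul])
  set a : V d := EuclideanSpace.single i h with ha
  have hna : ‖a‖ = h := by simp [ha, abs_of_pos hh]
  have hin : ∀ v : V d, ⟪a, v⟫ = h * v i := fun v => by simp [ha, EuclideanSpace.inner_single_left]
  set D0 : V d → ℝ := fun x => cj Y ψ0 (x + a) - cj Y ψ0 x with hD0
  set D1 : V d → ℝ := fun x => cj Y ψ1 (x + a) - cj Y ψ1 x with hD1
  set u : V d → ℝ := fun x => cj Y ψ1 x - cj Y ψ0 x - c with hu
  have cD0 : Continuous D0 := by fun_prop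
  have cD1 : Continuous D1 := by fun_prop
  have cu : Continuous u := by fun_prop
  have bD0 : ∀ x, |D0 x| ≤ L * h := fun x => by
    have := abs_cj_sub_le hY hne p0.cont hL (x + a) x
    rwa [add_sub_cancel_left, hna] at this
  have bD1 : ∀ x, |D1 x| ≤ L * h := fun x => by
    have := abs_cj_sub_le hY hne p1.cont hL (x + a) x
    rwa [add_sub_cancel_left, hna] at this
  have k0 := shift_ineq_one hK a cD0 bD0
  have k1 := shift_ineq_one hK a cD1 bD1
  have k2 := shift_ineq_two hK a cu (M := 2 * (L * h)) fun x => by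
    have a0 := abs_le.1 (bD0 x)
    have a1 := abs_le.1 (bD1 x)
    simp only [hD0, hD1] at a0 a1
    simp only [hu]
    rw [abs_le]
    constructor <;> linarith [a0.1, a0.2, a1.1, a1.2]
  have k3 := volume_sdiff_shift hd hK hKc hr hball hh hna.le
  have j0 : Integrable (fun x => D0 x - D0 (x - a)) (unif K) :=
    integrable_of_continuous hK hρK (by fun_prop)
  have j1 : Integrable (fun x => D1 x - D1 (x - a)) (unif K) :=
    integrable_of_continuous hK hρK (by fun_prop)
  have j2 : Integrable (fun x => (u (x + a) - u x) ^ 2) (unif K) :=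
    integrable_of_continuous hK hρK (by fun_prop)
  have j3 := ((j0.const_mul (6 * (L * h))).fun_add (j1.const_mul (6 * (L * h))))
  have k4 : ∫ x, h ^ 2 * (T0 x - T1 x) i ^ 2 ∂(unif K) ≤
      ∫ x, (6 * (L * h) * (D0 x - D0 (x - a)) + 6 * (L * h) * (D1 x - D1 (x - a)) +
        3 * (u (x + a) - u x) ^ 2) ∂(unif K) := by
    refine integral_mono_ae ((icoord i).const_mul _) (j3.add (j2.const_mul 3)) ?_
    filter_upwards [s0, s1] with x a0 a1
    have b0 := a0.2 a
    have b0' := a0.2 (-a)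
    have b1 := a1.2 a
    have b1' := a1.2 (-a)
    rw [inner_neg_left, ← sub_eq_add_neg x] at b0' b1'
    rw [hin] at b0 b0' b1 b1'
    have e0 : D0 (x - a) = cj Y ψ0 x - cj Y ψ0 (x - a) := by simp [hD0]
    have e1 : D1 (x - a) = cj Y ψ1 x - cj Y ψ1 (x - a) := by simp [hD1]
    have e2 : u (x + a) - u x = D1 x - D0 x := by simp only [hu, hD0, hD1]; ring
    have f0 : h * T0 x i ≤ D0 x := by simp only [hD0]; linarith
    have f1 : h * T1 x i ≤ D1 x := by simp only [hD1]; linarith
    have f0' : D0 (x - a) ≤ h * T0 x i := by rw [e0]; linarith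
    have f1' : D1 (x - a) ≤ h * T1 x i := by rw [e1]; linarith
    rw [e2, PiLp.sub_apply]
    exact rev_pointwise f0 f1 f0' f1' (bD0 x) (bD0 (x - a)) (bD1 x) (bD1 (x - a))
  rw [integral_add j3 (j2.const_mul 3), integral_add (j0.const_mul _) (j1.const_mul _),
    integral_const_mul, integral_const_mul, integral_const_mul, integral_const_mul,
    integral_unif K fun x => D0 x - D0 (x - a), integral_unif K fun x => D1 x - D1 (x - a),
    integral_unif K fun x => (u (x + a) - u x) ^ 2] at k4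
  rw [integral_unif K fun x => u x ^ 2]
  exact rev_final hh hL0 hk k0 k1 k2 k3 k4

end Vale.Agent.P074
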