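import Vale.Agent.P074.Bary

open MeasureTheory Set Filter Topology
open scoped ENNReal NNReal RealInnerProductSpace

namespace Vale.Agent.P074

variable {d : ℕ}

/-- Optimal value of the dual problem. -/
noncomputable def Vl (Y : Set (V d)) (σ μ : Measure (V d)) : ℝ :=
  ⨅ ψ : C(V d, ℝ), J Y σ μ ψ

lemma le_Vl {Y : Set (V d)} {σ μ : Measure (V d)} {c : ℝ}
    (h : ∀ ψ, Continuous ψ → c ≤ J Y σ μ ψ) : c ≤ Vl Y σ μ :=
  le_ciInf fun ψ => h ψ ψ.continuous

lemma OptPair.Vl_le {K Y : Set (V d)} (hK : IsCompact K) (hY : IsCompact Y) (hne : Y.Nonempty)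
    {σ μ : Measure (V d)} [IsFiniteMeasure σ] (hσ : ∀ᵐ x ∂σ, x ∈ K) {T : V d → V d}
    {ψ : V d → ℝ} (h : OptPair Y σ μ ψ T) {ψ' : V d → ℝ} (hψ' : Continuous ψ') :
    Vl Y σ μ ≤ J Y σ μ ψ' := by
  have hb : BddBelow (range fun ψ : C(V d, ℝ) => J Y σ μ ψ) := by
    refine ⟨J Y σ μ ψ, ?_⟩
    rintro _ ⟨g, rfl⟩
    exact h.J_le hK hY hne hσ g.continuous
  exact ciInf_le hb ⟨ψ', hψ'⟩

lemma OptPair.Vl_eq {K Y : Set (V d)} (hK : IsCompact K) (hY : IsCompact Y) (hne : Y.Nonempty)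
    {σ μ : Measure (V d)} [IsFiniteMeasure σ] (hσ : ∀ᵐ x ∂σ, x ∈ K) {T : V d → V d}
    {ψ : V d → ℝ} (h : OptPair Y σ μ ψ T) : Vl Y σ μ = J Y σ μ ψ :=
  le_antisymm (h.Vl_le hK hY hne hσ h.cont) (le_Vl fun _ hψ' => h.J_le hK hY hne hσ hψ')

lemma ae_atom {μ : Measure (V d)} {S : Finset (V d)} (hS : ∀ᵐ y ∂μ, y ∈ S) :
    ∀ᵐ y ∂μ, μ {y} ≠ 0 := by
  have h : ∀ᵐ y ∂μ, ∀ s ∈ (S : Set (V d)), y = s → μ {y} ≠ 0 := by
    rw [ae_ball_iff S.countable_toSet]
    intro s _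
    by_cases h0 : μ {s} = 0
    · have : ∀ᵐ y ∂μ, y ∉ ({s} : Set (V d)) := measure_eq_zero_iff_ae_notMem.1 h0
      filter_upwards [this] with y hy hys
      exact absurd hys hy
    · refine Eventually.of_forall fun y hy => ?_
      rwa [hy]
  filter_upwards [h, hS] with y h1 h2 using h1 y h2 rfl

lemma setAverage_inner {K : Set (V d)} (hK : IsCompact K) {σ : Measure (V d)} [IsFiniteMeasure σ]
    (hσ : ∀ᵐ x ∂σ, x ∈ K) (T : V d → V d) (z w : V d) :
    ⨍ x in T ⁻¹' {z}, ⟪x, w⟫ ∂σ = ⟪bary σ T z, w⟫ := by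
  have iid : Integrable (fun x : V d => x) σ := integrable_of_continuous hK hσ continuous_id
  simp only [real_inner_comm w]
  rw [bary, setAverage_eq, setAverage_eq, integral_inner iid.integrableOn, inner_smul_right,
    smul_eq_mul]

lemma integrable_bary_inner {Ω : Type} [MeasurableSpace Ω] {π : Measure Ω} [IsFiniteMeasure π]
    {y v : Ω → V d} (hy : Measurable y) (hv : Measurable v) {S : Finset (V d)}
    (hS : ∀ᵐ z ∂(π.map y), z ∈ S) {L : ℝ} (hL : ∀ᵐ ω ∂π, ‖v ω‖ ≤ L) (k : V d → V d) :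
    Integrable (fun ω => ⟪k (y ω), v ω⟫) π := by
  have h1 : Integrable (fun ω => k (y ω)) π := (integrable_of_finset hS k).comp_measurable hy
  refine Integrable.mono' (h1.norm.mul_const L)
    (h1.aestronglyMeasurable.inner hv.aestronglyMeasurable) ?_
  filter_upwards [hL] with ω hω
  exact (norm_inner_le_norm _ _).trans (mul_le_mul_of_nonneg_left hω (norm_nonneg _))

lemma bary_weak {Ω : Type} [MeasurableSpace Ω] {π : Measure Ω} [IsProbabilityMeasure π]
    {K Y : Set (V d)} (hK : IsCompact K) (hY : IsCompact Y) (hne : Y.Nonempty)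
    {σ : Measure (V d)} [IsFiniteMeasure σ] (hσ : ∀ᵐ x ∂σ, x ∈ K)
    {y y' : Ω → V d} (hy : Measurable y) (hy' : Measurable y') {S : Finset (V d)}
    (hS : ∀ᵐ z ∂(π.map y), z ∈ S) (hY' : ∀ᵐ ω ∂π, y' ω ∈ Y) {T : V d → V d} (hT : Measurable T)
    (hmap : σ.map T = π.map y) {ψ : V d → ℝ} (hψ : Continuous ψ) :
    ∫ ω, ⟪bary σ T (y ω), y' ω⟫ ∂π ≤ J Y σ (π.map y') ψ := by
  obtain ⟨L, -, hL⟩ := exists_norm_bound hY
  have ic := integrable_of_continuous hK hσ (continuous_cj hY hne hψ)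
  have ia := integrable_of_finset hS (fun z => ⨍ x in T ⁻¹' {z}, cj Y ψ x ∂σ)
  have ib := integrable_comp_map hY hy' hY' hψ
  rw [J, ← integral_avg hS hT hmap ic, integral_map hy.aemeasurable ia.aestronglyMeasurable,
    integral_map hy'.aemeasurable hψ.aestronglyMeasurable,
    ← integral_add (f := fun ω => ⨍ x in T ⁻¹' {y ω}, cj Y ψ x ∂σ) (ia.comp_measurable hy) ib]
  refine integral_mono_ae (integrable_bary_inner hy hy' hS (hY'.mono fun ω h => hL _ h) _)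
    ((ia.comp_measurable hy).add ib) ?_
  filter_upwards [hY', ae_of_ae_map hy.aemeasurable (ae_atom hS)] with ω h1 h2
  have hpos : 0 < σ.real (T ⁻¹' {y ω}) := by
    rw [real_preimage hT hmap]
    exact ENNReal.toReal_pos h2 (measure_ne_top _ _)
  have i1 : Integrable (fun x => ⟪x, y' ω⟫) σ := integrable_of_continuous hK hσ (by fun_prop)
  have h3 : ∫ x in T ⁻¹' {y ω}, ⟪x, y' ω⟫ ∂σ ≤ ∫ x in T ⁻¹' {y ω}, (cj Y ψ x + ψ (y' ω)) ∂σ := by
    refine integral_mono i1.integrableOn (ic.add (integrable_const _)).integrableOn fun x => ?_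
    have := le_cj hY hψ x h1
    simp only
    linarith
  rw [integral_add ic.integrableOn (integrable_const _), setIntegral_const] at h3
  rw [← setAverage_inner hK hσ, setAverage_eq, setAverage_eq, smul_eq_mul, smul_eq_mul,
    inv_mul_le_iff₀ hpos, mul_add, ← mul_assoc, mul_inv_cancel₀ hpos.ne', one_mul]
  exact h3

lemma OptPair.J_eq_bary {Ω : Type} [MeasurableSpace Ω] {π : Measure Ω} [IsProbabilityMeasure π]
    {K Y : Set (V d)} (hK : IsCompact K) (hY : IsCompact Y) (hne : Y.Nonempty)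
    {σ : Measure (V d)} [IsFiniteMeasure σ] (hσ : ∀ᵐ x ∂σ, x ∈ K)
    {y : Ω → V d} (hy : Measurable y) {S : Finset (V d)}
    (hS : ∀ᵐ z ∂(π.map y), z ∈ S) {T : V d → V d} {ψ : V d → ℝ}
    (h : OptPair Y σ (π.map y) ψ T) :
    J Y σ (π.map y) ψ = ∫ ω, ⟪bary σ T (y ω), y ω⟫ ∂π := by
  rw [h.J_eq hK hY hne hσ, ← integral_avg hS h.meas h.map
    (integrable_inner_map hK hY hσ h.meas (h.sat.mono fun x hx => hx.1)),
    integral_map hy.aemeasurable (integrable_of_finset hS _).aestronglyMeasurable]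
  congr 1
  ext ω
  rw [← setAverage_inner hK hσ]
  refine setAverage_congr_fun (h.meas (measurableSet_singleton _))
    (Eventually.of_forall fun x hx => ?_)
  have : T x = y ω := hx
  rw [this]

lemma OptPair.subgrad {Ω : Type} [MeasurableSpace Ω] {π : Measure Ω} [IsProbabilityMeasure π]
    {K Y : Set (V d)} (hK : IsCompact K) (hY : IsCompact Y) (hne : Y.Nonempty)
    {σ : Measure (V d)} [IsFiniteMeasure σ] (hσ : ∀ᵐ x ∂σ, x ∈ K)
    {y v : Ω → V d} (hy : Measurable y) (hv : Measurable v) {S : Finset (V d)}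
    (hS : ∀ᵐ z ∂(π.map y), z ∈ S) (hyY : ∀ᵐ ω ∂π, y ω ∈ Y) {L' : ℝ} (hL' : ∀ᵐ ω ∂π, ‖v ω‖ ≤ L')
    {T : V d → V d} {ψ : V d → ℝ} (h : OptPair Y σ (π.map y) ψ T) (τ : ℝ)
    (hτ : ∀ᵐ ω ∂π, y ω + τ • v ω ∈ Y) :
    Vl Y σ (π.map y) + τ * ∫ ω, ⟪bary σ T (y ω), v ω⟫ ∂π ≤
      Vl Y σ (π.map fun ω => y ω + τ • v ω) := by
  obtain ⟨L, -, hL⟩ := exists_norm_bound hY
  refine le_Vl fun ψ' hψ' => le_trans (le_of_eq ?_)
    (bary_weak hK hY hne hσ hy (by fun_prop) hS hτ h.meas h.map hψ')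
  rw [h.Vl_eq hK hY hne hσ, h.J_eq_bary hK hY hne hσ hy hS, ← integral_const_mul,
    ← integral_add (integrable_bary_inner hy hy hS (hyY.mono fun ω h => hL _ h) _)
    ((integrable_bary_inner hy hv hS hL' _).const_mul τ)]
  simp only [inner_add_right, inner_smul_right]

theorem step_ineq {Ω : Type} [MeasurableSpace Ω] {π : Measure Ω} [IsProbabilityMeasure π]
    {K Y : Set (V d)} (hK : IsCompact K) (hKc : Convex ℝ K) (hKne : K.Nonempty)
    [IsProbabilityMeasure (unif K)] (hY : IsCompact Y) (hne : Y.Nonempty) {R : ℝ≥0}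
    (hR : ∀ x ∈ K, ‖x‖ ≤ R) {f : V d → ℝ} (hf : Pert K f)
    {y v : Ω → V d} (hy : Measurable y) (hv : Measurable v) {S : Finset (V d)}
    (hS : ∀ᵐ ω ∂π, y ω ∈ S) (hyY : ∀ᵐ ω ∂π, y ω ∈ Y) {L' : ℝ} (hL' : ∀ᵐ ω ∂π, ‖v ω‖ ≤ L')
    {lam : ℝ} (hlam : 0 < lam) :
    ∃ a b : ℝ, (∀ τ : ℝ, (∀ᵐ ω ∂π, y ω + τ • v ω ∈ Y) →
        Vl Y (dens K f) (π.map y) + τ * a ≤ Vl Y (dens K f) (π.map fun ω => y ω + τ • v ω) ∧
        Vl Y (unif K) (π.map y) + τ * b ≤ Vl Y (unif K) (π.map fun ω => y ω + τ • v ω)) ∧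
      a - b ≤ lam * (18 * R ^ 2 * ∫ x, f x ^ 2 ∂(unif K)) + (∫ ω, ‖v ω‖ ^ 2 ∂π) / (2 * lam) ∧
      |b| ≤ R * L' := by
  classical
  have := hf.prob
  have hρK := unif_ae_mem hK
  have hσK : ∀ᵐ x ∂(dens K f), x ∈ K := (dens_ac K f).ae_le hρK
  have : IsProbabilityMeasure (π.map y) := Measure.isProbabilityMeasure_map hy.aemeasurable
  have hμY : ∀ᵐ z ∂(π.map y), z ∈ Y := (ae_map_iff hy.aemeasurable hY.measurableSet).2 hyY
  have hS' : ∀ᵐ z ∂(π.map y), z ∈ S.filter (· ∈ Y) := by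
    refine (ae_map_iff hy.aemeasurable (Finset.measurableSet _)).2 ?_
    filter_upwards [hS, hyY] with ω h1 h2
    exact Finset.mem_filter.2 ⟨h1, h2⟩
  obtain ⟨ψ, T, -, h⟩ := brenier hK hKne hY hne hR (unif_ac K) hρK hμY
  obtain ⟨ψ', T', -, h'⟩ := brenier hK hKne hY hne hR ((dens_ac K f).trans (unif_ac K)) hσK hμY
  refine ⟨∫ ω, ⟪bary (dens K f) T' (y ω), v ω⟫ ∂π, ∫ ω, ⟪bary (unif K) T (y ω), v ω⟫ ∂π,
    fun τ hτ => ⟨h'.subgrad hK hY hne hσK hy hv hS' hyY hL' τ hτ,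
      h.subgrad hK hY hne hρK hy hv hS' hyY hL' τ hτ⟩, ?_, ?_⟩
  · have key := bary_ineq hK hKc hY hne hR hf hS' (fun y hy => (Finset.mem_filter.1 hy).2) h h'
    have ia := integrable_of_finset hS'
      (fun z => ‖bary (unif K) T z - bary (dens K f) T' z‖ ^ 2)
    rw [integral_map hy.aemeasurable ia.aestronglyMeasurable] at key
    have iv : Integrable (fun ω => ‖v ω‖ ^ 2) π := by
      refine Integrable.of_bound (by fun_prop) (L' ^ 2) ?_
      filter_upwards [hL'] with ω hω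
      rw [norm_pow, norm_norm]
      gcongr
    have i1 := integrable_bary_inner hy hv hS' hL' (bary (dens K f) T')
    have i2 := integrable_bary_inner hy hv hS' hL' (bary (unif K) T)
    have i3 : Integrable (fun ω => lam / 2 *
        ‖bary (unif K) T (y ω) - bary (dens K f) T' (y ω)‖ ^ 2) π :=
      (ia.comp_measurable hy).const_mul _
    have i4 := iv.div_const (2 * lam)
    have h5 := integral_mono (i1.sub' i2) (i3.fun_add i4) (fun ω => by
      simp only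
      rw [← inner_sub_left]
      have h1 := real_inner_le_norm (bary (dens K f) T' (y ω) - bary (unif K) T (y ω)) (v ω)
      rw [norm_sub_rev] at h1
      refine h1.trans ?_
      set p := ‖bary (unif K) T (y ω) - bary (dens K f) T' (y ω)‖
      set q := ‖v ω‖
      have : lam / 2 * p ^ 2 + q ^ 2 / (2 * lam) - p * q = (lam * p - q) ^ 2 / (2 * lam) := by
        field_simp
        ring
      have h2 : 0 ≤ (lam * p - q) ^ 2 / (2 * lam) := by positivity
      linarith)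
    rw [integral_sub i1 i2, integral_add i3 i4, integral_const_mul, integral_div] at h5
    have h6 := mul_le_mul_of_nonneg_left key (show 0 ≤ lam / 2 by positivity)
    linarith
  · have := norm_integral_le_of_norm_le_const (μ := π)
      (f := fun ω => ⟪bary (unif K) T (y ω), v ω⟫) (C := R * L') (by
        filter_upwards [hL'] with ω hω
        exact (norm_inner_le_norm _ _).trans (mul_le_mul (norm_bary_le hρK R.2 hR _ _) hω
          (norm_nonneg _) R.2))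
    simpa using this

end Vale.Agent.P074
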