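import Vale.Agent.P074.Pot
import Vale.Agent.P074.Rev
import Vale.Agent.P074.Lower

open MeasureTheory Set Filter Topology
open scoped ENNReal NNReal RealInnerProductSpace

namespace Vale.Agent.P074

variable {d : ℕ}

lemma lintegral_enorm_sq {Ω : Type} [MeasurableSpace Ω] {m : Measure Ω} [IsFiniteMeasure m]
    {g : Ω → V d} (hg : Measurable g) {M : ℝ} (hM : ∀ᵐ x ∂m, ‖g x‖ ≤ M) :
    ∫⁻ x, ‖g x‖ₑ ^ 2 ∂m = ENNReal.ofReal (∫ x, ‖g x‖ ^ 2 ∂m) := by
  have i : Integrable (fun x => ‖g x‖ ^ 2) m := by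
    refine Integrable.of_bound (by fun_prop) (M ^ 2) ?_
    filter_upwards [hM] with x hx
    rw [norm_pow, norm_norm]
    gcongr
  rw [ofReal_integral_eq_lintegral_ofReal i (Eventually.of_forall fun x => by positivity)]
  congr 1
  ext x
  rw [ENNReal.ofReal_pow (norm_nonneg _), ofReal_norm]

theorem admissible_third (hd : 1 ≤ d) : Admissible d (1 / 3) := by
  intro K hK hKc hint Y0 hY0 _
  have := unif_prob hK hint
  have hKne : K.Nonempty := hint.mono interior_subset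
  obtain ⟨R, hR0, hR⟩ := exists_norm_bound hK
  obtain ⟨L, hL0, hL'⟩ := exists_norm_bound hY0
  have hR0' : (0:ℝ) < R := hR0
  have hL0' : (0:ℝ) < L := hL0
  have hd' : (0:ℝ) < d := by exact_mod_cast hd
  set Y : Set (V d) := Metric.closedBall 0 L with hYdef
  have hY : IsCompact Y := isCompact_closedBall _ _
  have hYc : Convex ℝ Y := convex_closedBall _ _
  have hne : Y.Nonempty := ⟨0, Metric.mem_closedBall_self L.2⟩
  have hL : ∀ y ∈ Y, ‖y‖ ≤ L := fun y hy => mem_closedBall_zero_iff.1 hy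
  obtain ⟨x0, hx0⟩ := hint
  obtain ⟨r, hr, hball⟩ := Metric.nhds_basis_closedBall.mem_iff.1 (mem_interior_iff_mem_nhds.1 hx0)
  set C0 : ℝ := d * (36 * L ^ 2 * (d / r) + 12 * (144 * R ^ 2)) with hC0
  have hC0pos : 0 < C0 := by positivity
  refine ⟨⟨√C0, Real.sqrt_nonneg _⟩, fun μ ν _ _ hμ hν T S hT hS => ?_⟩
  have hρK := unif_ae_mem hK
  have hμY : ∀ᵐ y ∂μ, y ∈ Y := Eventually.mono ((mem_ae_iff_prob_eq_one hY0.measurableSet).2 hμ)
    fun y hy => mem_closedBall_zero_iff.2 (hL' y hy)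
  have hνY : ∀ᵐ y ∂ν, y ∈ Y := Eventually.mono ((mem_ae_iff_prob_eq_one hY0.measurableSet).2 hν)
    fun y hy => mem_closedBall_zero_iff.2 (hL' y hy)
  obtain ⟨ψ0, T', -, p0⟩ := brenier hK hKne hY hne hR (unif_ac K) hρK hμY
  obtain ⟨ψ1, S', -, p1⟩ := brenier hK hKne hY hne hR (unif_ac K) hρK hνY
  replace p0 := p0.of_isOptimalMap hK hY hne hρK hT
  replace p1 := p1.of_isOptimalMap hK hY hne hρK hS
  have hb : ∀ᵐ x ∂(unif K), ‖T x - S x‖ ≤ L + L := by
    filter_upwards [p0.sat, p1.sat] with x a0 a1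
    exact (norm_sub_le _ _).trans (add_le_add (hL _ a0.1) (hL _ a1.1))
  set C : ℝ≥0 := ⟨√C0, Real.sqrt_nonneg _⟩ with hC
  have hC' : (C : ℝ≥0∞) = ENNReal.ofReal √C0 := by
    rw [← ENNReal.ofReal_coe_nnreal]; rfl
  have hCne : (C : ℝ≥0∞) ≠ 0 := by
    rw [hC']
    simpa using hC0pos
  rw [← ENNReal.div_le_iff' hCne ENNReal.coe_ne_top, one_div,
    ENNReal.le_rpow_inv_iff (by norm_num)]
  refine le_iInf₂ fun π hπ => ?_
  rw [← ENNReal.le_rpow_inv_iff (by norm_num), ENNReal.div_le_iff' hCne ENNReal.coe_ne_top]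
  obtain ⟨rfl, rfl⟩ := hπ
  have : IsProbabilityMeasure π := by
    constructor
    have := measure_univ (μ := π.map Prod.fst)
    rwa [Measure.map_apply measurable_fst MeasurableSet.univ] at this
  have h0 : ∀ᵐ ω ∂π, ω.1 ∈ Y := ae_of_ae_map measurable_fst.aemeasurable hμY
  have h1 : ∀ᵐ ω ∂π, ω.2 ∈ Y := ae_of_ae_map measurable_snd.aemeasurable hνY
  obtain ⟨c, hc⟩ := potential_stability hK hKc hKne hY hYc hne hR0 hR hL h0 h1 p0 p1
  set W := ∫ ω, ‖ω.1 - ω.2‖ ^ 2 ∂π with hW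
  have hW0 : 0 ≤ W := integral_nonneg fun ω => by positivity
  set I := ∫ x, ‖T x - S x‖ ^ 2 ∂(unif K) with hI
  have hI0 : 0 ≤ I := integral_nonneg fun ω => by positivity
  have core : I ≤ C0 * W ^ (3⁻¹ : ℝ) := by
    rw [← div_le_iff₀' hC0pos]
    refine le_of_forall_gt_imp_ge_of_dense fun h hh => ?_
    have hh0 : 0 < h := lt_of_le_of_lt (by positivity) hh
    have hWh : W ≤ h ^ 3 := by
      have := (Real.rpow_inv_le_iff_of_pos hW0 hh0.le (by norm_num : (0:ℝ) < 3)).1 hh.le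
      exact_mod_cast this
    have k := reverse_poincare hd hK hKc hr hball hY hne hL0'.le hL p0 p1 c hh0
    rw [div_le_iff₀' hC0pos]
    refine k.trans ?_
    have k2 : 12 * (∫ x, (cj Y ψ1 x - cj Y ψ0 x - c) ^ 2 ∂(unif K)) / h ^ 2 ≤
        12 * (144 * R ^ 2) * h := by
      rw [div_le_iff₀ (by positivity)]
      have := mul_le_mul_of_nonneg_left hWh (show (0:ℝ) ≤ 144 * R ^ 2 by positivity)
      nlinarith
    have k3 : C0 * h = d * (36 * L ^ 2 * (d * (h / r)) + 12 * (144 * R ^ 2) * h) := by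
      rw [hC0]; ring
    rw [k3]
    gcongr
  simp only [edist_eq_enorm_sub]
  rw [eLpNorm_two_eq, lintegral_enorm_sq (g := fun x => T x - S x) (hT.1.sub hS.1) hb,
    lintegral_enorm_sq (g := fun ω : V d × V d => ω.1 - ω.2) (by fun_prop) (M := L + L)
      (by
        filter_upwards [h0, h1] with ω a0 a1
        exact (norm_sub_le _ _).trans (add_le_add (hL _ a0) (hL _ a1))),
    ← hW, ← hI, hC', ENNReal.ofReal_rpow_of_nonneg hI0 (by norm_num),
    ENNReal.ofReal_rpow_of_nonneg hW0 (by norm_num),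
    ENNReal.ofReal_rpow_of_nonneg (by positivity) (by norm_num),
    ← ENNReal.ofReal_mul (Real.sqrt_nonneg _)]
  apply ENNReal.ofReal_le_ofReal
  rw [← Real.rpow_mul hW0, mul_comm (1 / 2 : ℝ), Real.rpow_mul hW0, ← Real.sqrt_eq_rpow,
    ← Real.sqrt_eq_rpow, ← Real.sqrt_mul hC0pos.le]
  exact Real.sqrt_le_sqrt core

end Vale.Agent.P074
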