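import Vale.Agent.P074.Dens

open MeasureTheory Set Filter Topology
open scoped ENNReal NNReal RealInnerProductSpace

namespace Vale.Agent.P074

variable {d : ℕ}

lemma norm_mid_sq (x y : V d) :
    ‖(1 / 2 : ℝ) • (x + y)‖ ^ 2 = ‖x‖ ^ 2 / 2 + ‖y‖ ^ 2 / 2 - ‖x - y‖ ^ 2 / 4 := by
  rw [norm_smul, mul_pow, norm_add_sq_real, norm_sub_sq_real]
  norm_num
  ring

lemma mid_mem {K : Set (V d)} (hK : Convex ℝ K) {x y : V d} (hx : x ∈ K) (hy : y ∈ K) :
    (1 / 2 : ℝ) • (x + y) ∈ K := by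
  rw [smul_add]
  exact hK hx hy (by norm_num) (by norm_num) (by norm_num)

lemma abs_norm_sq_sub_le {x y : V d} {R : ℝ} (hx : ‖x‖ ≤ R) (hy : ‖y‖ ≤ R) :
    |‖x‖ ^ 2 - ‖y‖ ^ 2| ≤ 2 * R * ‖x - y‖ := by
  have h1 := abs_norm_sub_norm_le x y
  rw [sq_sub_sq, abs_mul, abs_of_nonneg (by positivity)]
  exact mul_le_mul (by linarith) h1 (abs_nonneg _) (by linarith [norm_nonneg x])

lemma Pert.integrable_mul {K : Set (V d)} (hK : IsCompact K) [IsFiniteMeasure (unif K)]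
    {f : V d → ℝ} (hf : Pert K f) {g : V d → ℝ} (hg : Continuous g) :
    Integrable (fun x => g x * f x) (unif K) :=
  (integrable_of_continuous hK (unif_ae_mem hK) hg).mul_bdd hf.meas.aestronglyMeasurable
    (Eventually.of_forall hf.bd)

lemma Pert.integrable_sq {K : Set (V d)} [IsFiniteMeasure (unif K)]
    {f : V d → ℝ} (hf : Pert K f) : Integrable (fun x => f x ^ 2) (unif K) := by
  simp only [sq]
  exact hf.integrable.mul_bdd hf.meas.aestronglyMeasurable (Eventually.of_forall hf.bd)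

theorem variance_ineq {K Y : Set (V d)} (hK : IsCompact K) (hKc : Convex ℝ K)
    [IsProbabilityMeasure (unif K)] (hY : IsCompact Y) (hne : Y.Nonempty) {R L : ℝ}
    (hR0 : 0 ≤ R) (hL0 : 0 ≤ L) (hR : ∀ x ∈ K, ‖x‖ ≤ R) (hL : ∀ y ∈ Y, ‖y‖ ≤ L)
    {g : V d → ℝ} (hg : Pert K g) {ψa ψb : V d → ℝ} (ha : Continuous ψa) (hb : Continuous ψb) :
    (∫ x, cj Y ψa x * g x ∂(unif K) - ∫ x, cj Y ψb x * g x ∂(unif K)) / 4 -
      (L * R + R ^ 2 + 4 * (L / 2 + R) ^ 2) * ∫ x, g x ^ 2 ∂(unif K) ≤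
      (∫ x, cj Y ψa x ∂(unif K) + ∫ x, cj Y ψb x ∂(unif K)) / 2 -
        ∫ x, cj Y (fun y => (ψa y + ψb y) / 2) x ∂(unif K) := by
  have := hg.prob
  have ca := continuous_cj hY hne ha
  have cb := continuous_cj hY hne hb
  have cm := continuous_cj hY hne (ψ := fun y => (ψa y + ψb y) / 2) (by fun_prop)
  set φa := cj Y ψa with hφa
  set φb := cj Y ψb with hφb
  set φm := cj Y (fun y => (ψa y + ψb y) / 2) with hφm
  have hKm := hK.measurableSet
  have la : ∀ x ∈ K, |φa x - φa 0| ≤ L * R := fun x hx => by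
    refine (abs_cj_sub_le hY hne ha hL x 0).trans ?_
    rw [sub_zero]
    exact mul_le_mul_of_nonneg_left (hR x hx) hL0
  have lb : ∀ x ∈ K, |φb x - φb 0| ≤ L * R := fun x hx => by
    refine (abs_cj_sub_le hY hne hb hL x 0).trans ?_
    rw [sub_zero]
    exact mul_le_mul_of_nonneg_left (hR x hx) hL0
  have h1 : (unif K).restrict K = unif K := Measure.restrict_eq_self_of_ae_mem (unif_ae_mem hK)
  have key := general_ineq hK hg hKm hKm hKm Subset.rfl Subset.rfl Subset.rfl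
    (by
      rw [(mem_ae_iff_prob_eq_one hKm).1 (unif_ae_mem hK),
        (mem_ae_iff_prob_eq_one hKm).1 ((dens_ac K g).ae_le (unif_ae_mem hK))])
    (P := fun x => (L * R + R ^ 2) / 2 - (φa x - φa 0) / 2 - ‖x‖ ^ 2 / 2)
    (Q := fun x => (L * R + R ^ 2) / 2 - (φb x - φb 0) / 2 - ‖x‖ ^ 2 / 2)
    (h := fun z => L * R + R ^ 2 - φm z + (φa 0 + φb 0) / 2 - ‖z‖ ^ 2)
    (by fun_prop) (by fun_prop) (by fun_prop) (Λ := L / 2 + R) (B := L * R + R ^ 2)
    (by positivity)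
    (fun x hx y hy => by
      have a1 := abs_le.1 (abs_cj_sub_le hY hne ha hL x y)
      have a2 := abs_le.1 (abs_norm_sq_sub_le (hR x hx) (hR y hy))
      rw [abs_le]
      constructor <;> linarith [a1.1, a1.2, a2.1, a2.2])
    (fun y hy => by
      have a1 := abs_le.1 (la y hy)
      have a2 := abs_le.1 (lb y hy)
      nlinarith [a1.1, a2.1, sq_nonneg ‖y‖, sq_nonneg R])
    (fun z hz => by
      have a1 := abs_le.1 (la z hz)
      have a2 := abs_le.1 (lb z hz)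
      have a3 := cj_mid hY hne ha hb z z
      have a4 : (1 / 2 : ℝ) • (z + z) = z := by rw [← two_smul ℝ z, smul_smul]; norm_num
      rw [a4] at a3
      have a5 : ‖z‖ ^ 2 ≤ R ^ 2 := by gcongr; exact hR z hz
      linarith [a1.2, a2.2])
    (fun x hx y hy => by
      refine ⟨mid_mem hKc hx hy, ?_⟩
      have a3 := cj_mid hY hne ha hb x y
      simp only [norm_mid_sq]
      linarith) 0
  rw [h1] at key
  have ia := integrable_of_continuous hK (unif_ae_mem hK) ca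
  have ib := integrable_of_continuous hK (unif_ae_mem hK) cb
  have im := integrable_of_continuous hK (unif_ae_mem hK) cm
  have iq : Integrable (fun x : V d => ‖x‖ ^ 2) (unif K) :=
    integrable_of_continuous hK (unif_ae_mem hK) (by fun_prop)
  have iag := hg.integrable_mul hK ca
  have ibg := hg.integrable_mul hK cb
  have ig := hg.integrable
  have ig2 := hg.integrable_sq
  have e1 : ∫ x, ((L * R + R ^ 2) / 2 - (φa x - φa 0) / 2 - ‖x‖ ^ 2 / 2 + ⟪(0 : V d), x⟫ / 4 -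
      ‖(0 : V d)‖ ^ 2 / 8) ∂(unif K) = (L * R + R ^ 2) / 2 + φa 0 / 2 -
        (∫ x, φa x ∂(unif K)) / 2 - (∫ x, ‖x‖ ^ 2 ∂(unif K)) / 2 := by
    have : ∀ x : V d, (L * R + R ^ 2) / 2 - (φa x - φa 0) / 2 - ‖x‖ ^ 2 / 2 + ⟪(0 : V d), x⟫ / 4 -
      ‖(0 : V d)‖ ^ 2 / 8 = (L * R + R ^ 2) / 2 + φa 0 / 2 - φa x / 2 - ‖x‖ ^ 2 / 2 := by
      intro x; simp; ring
    simp only [this]
    rw [integral_sub ((integrable_const _).sub' (ia.div_const 2)) (iq.div_const 2),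
      integral_sub (integrable_const _) (ia.div_const 2), integral_div, integral_div]
    simp
  have e2 : ∫ y, ((L * R + R ^ 2) / 2 - (φb y - φb 0) / 2 - ‖y‖ ^ 2 / 2 +
      ((L * R + R ^ 2) / 2 - (φb y - φb 0) / 2 - ‖y‖ ^ 2 / 2 -
        ((L * R + R ^ 2) / 2 - (φa y - φa 0) / 2 - ‖y‖ ^ 2 / 2)) * g y / 2 -
      (L * R + R ^ 2 + 4 * (L / 2 + R) ^ 2) * g y ^ 2) ∂(unif K) =
      (L * R + R ^ 2) / 2 + φb 0 / 2 - (∫ x, φb x ∂(unif K)) / 2 - (∫ x, ‖x‖ ^ 2 ∂(unif K)) / 2 +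
        (∫ x, φa x * g x ∂(unif K)) / 4 - (∫ x, φb x * g x ∂(unif K)) / 4 -
        (L * R + R ^ 2 + 4 * (L / 2 + R) ^ 2) * ∫ x, g x ^ 2 ∂(unif K) := by
    have : ∀ y : V d, (L * R + R ^ 2) / 2 - (φb y - φb 0) / 2 - ‖y‖ ^ 2 / 2 +
      ((L * R + R ^ 2) / 2 - (φb y - φb 0) / 2 - ‖y‖ ^ 2 / 2 -
        ((L * R + R ^ 2) / 2 - (φa y - φa 0) / 2 - ‖y‖ ^ 2 / 2)) * g y / 2 -
      (L * R + R ^ 2 + 4 * (L / 2 + R) ^ 2) * g y ^ 2 =
      (L * R + R ^ 2) / 2 + φb 0 / 2 - φb y / 2 - ‖y‖ ^ 2 / 2 + φa y * g y / 4 -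
        φb y * g y / 4 - (L * R + R ^ 2 + 4 * (L / 2 + R) ^ 2) * g y ^ 2 +
        (φb 0 - φa 0) / 4 * g y := by
      intro y; ring
    simp only [this]
    have j1 := (integrable_const ((L * R + R ^ 2) / 2 + φb 0 / 2)).sub' (ib.div_const 2)
    have j2 := j1.sub' (iq.div_const 2)
    have j3 := j2.fun_add (iag.div_const 4)
    have j4 := j3.sub' (ibg.div_const 4)
    have j5 := j4.sub' (ig2.const_mul (L * R + R ^ 2 + 4 * (L / 2 + R) ^ 2))
    rw [integral_add j5 (ig.const_mul _), integral_sub j4 (ig2.const_mul _),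
      integral_sub j3 (ibg.div_const 4), integral_add j2 (iag.div_const 4),
      integral_sub j1 (iq.div_const 2), integral_sub (integrable_const _) (ib.div_const 2),
      integral_div, integral_div, integral_div, integral_div, integral_const_mul,
      integral_const_mul, hg.mean]
    simp
  have e3 : ∫ z, (L * R + R ^ 2 - φm z + (φa 0 + φb 0) / 2 - ‖z‖ ^ 2) ∂(unif K) =
      L * R + R ^ 2 - ∫ x, φm x ∂(unif K) + (φa 0 + φb 0) / 2 - ∫ x, ‖x‖ ^ 2 ∂(unif K) := by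
    have j1 := (integrable_const (L * R + R ^ 2)).sub' im
    have j2 := j1.fun_add (integrable_const ((φa 0 + φb 0) / 2))
    rw [integral_sub j2 iq, integral_add j1 (integrable_const _),
      integral_sub (integrable_const _) im]
    simp
  rw [e1, e2, e3] at key
  simp only [inner_zero_left, zero_div, integral_zero] at key
  linarith

lemma Pert.J_dens {K Y : Set (V d)} (hK : IsCompact K) [IsProbabilityMeasure (unif K)]
    (hY : IsCompact Y) (hne : Y.Nonempty) {f : V d → ℝ} (hf : Pert K f) (μ : Measure (V d))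
    {ψ : V d → ℝ} (hψ : Continuous ψ) :
    J Y (dens K f) μ ψ = J Y (unif K) μ ψ + ∫ x, cj Y ψ x * f x ∂(unif K) := by
  have c := continuous_cj hY hne hψ
  unfold J
  rw [hf.integral_dens]
  have : ∀ x, (1 + f x) * cj Y ψ x = cj Y ψ x + cj Y ψ x * f x := fun x => by ring
  simp only [this]
  rw [integral_add (integrable_of_continuous hK (unif_ae_mem hK) c) (hf.integrable_mul hK c)]
  ring

theorem J_dens_ge {K Y : Set (V d)} (hK : IsCompact K) (hKc : Convex ℝ K)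
    [IsProbabilityMeasure (unif K)] (hY : IsCompact Y) (hne : Y.Nonempty) {R L : ℝ}
    (hR0 : 0 ≤ R) (hL0 : 0 ≤ L) (hR : ∀ x ∈ K, ‖x‖ ≤ R) (hL : ∀ y ∈ Y, ‖y‖ ≤ L)
    {f : V d → ℝ} (hf : Pert K f) (hf2 : Pert K fun x => 2 * f x) {μ : Measure (V d)}
    [IsProbabilityMeasure μ] (hμ : ∀ᵐ y ∂μ, y ∈ Y) {ψ0 : V d → ℝ} {T : V d → V d}
    (h0 : OptPair Y (unif K) μ ψ0 T) {ψ : V d → ℝ} (hψ : Continuous ψ) :
    J Y (unif K) μ ψ0 + ∫ x, cj Y ψ0 x * f x ∂(unif K) -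
      8 * (L * R + R ^ 2 + 4 * (L / 2 + R) ^ 2) * ∫ x, f x ^ 2 ∂(unif K) ≤ J Y (dens K f) μ ψ := by
  have h1 := variance_ineq hK hKc hY hne hR0 hL0 hR hL hf2 h0.cont hψ
  have h2 := h0.J_le hK hY hne (unif_ae_mem hK) (ψ' := fun y => (ψ0 y + ψ y) / 2)
    (by have := h0.cont; fun_prop)
  rw [hf.J_dens hK hY hne μ hψ]
  unfold J at h2 ⊢
  rw [integral_div, integral_add (integrable_of_continuous hY hμ h0.cont)
    (integrable_of_continuous hY hμ hψ)] at h2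
  have e1 : ∀ φ : V d → ℝ, ∫ x, φ x * (2 * f x) ∂(unif K) = 2 * ∫ x, φ x * f x ∂(unif K) := by
    intro φ
    rw [← integral_const_mul]
    congr 1; ext x; ring
  have e2 : ∫ x, (2 * f x) ^ 2 ∂(unif K) = 4 * ∫ x, f x ^ 2 ∂(unif K) := by
    rw [← integral_const_mul]
    congr 1; ext x; ring
  rw [e1, e1, e2] at h1
  linarith

end Vale.Agent.P074
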